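import Mathlib

/-! Classical particles in three dimensions with a radial pair potential: definitions. -/

namespace Vale.Agent.P171

open MeasureTheory Set

/-- The cube `[0, L]^3`. -/
def cube (L : ℝ) : Set (EuclideanSpace ℝ (Fin 3)) := {x | ∀ a, x a ∈ Icc 0 L}

/-- The energy `U_N(x) = ∑_{i < j} φ(|x_i - x_j|)`. -/
noncomputable def energy (φ : ℝ → ℝ) {N : ℕ} (x : Fin N → EuclideanSpace ℝ (Fin 3)) : ℝ :=
  ∑ i, ∑ j ∈ Finset.univ.filter (fun j => i < j), φ ‖x i - x j‖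

/-- Stability: `U_N ≥ -B N` for all configurations of distinct points. -/
def Stable (φ : ℝ → ℝ) : Prop :=
  ∃ B : ℝ, ∀ (N : ℕ) (x : Fin N → EuclideanSpace ℝ (Fin 3)), Function.Injective x →
    -B * N ≤ energy φ x

/-- Temperedness: `φ(r) ≤ C r^(-3-ε)` for `r ≥ R₀`. -/
def Tempered (φ : ℝ → ℝ) : Prop :=
  ∃ C ε R₀ : ℝ, 0 < C ∧ 0 < ε ∧ 0 < R₀ ∧ ∀ r, R₀ ≤ r → φ r ≤ C * r ^ (-3 - ε)

/-- The canonical partition function `Z_{L,N}(β)`. -/
noncomputable def canonicalZ (φ : ℝ → ℝ) (β L : ℝ) (N : ℕ) : ℝ :=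
  (1 / (N.factorial : ℝ)) *
    ∫ x in Set.pi univ (fun _ : Fin N => cube L), Real.exp (-β * energy φ x)

/-- The grand-canonical partition function `∑_N z^N Z_{L,N}(β)`. -/
noncomputable def grandZ (φ : ℝ → ℝ) (β z L : ℝ) : ℝ :=
  ∑' N : ℕ, z ^ N * canonicalZ φ β L N

end Vale.Agent.P171
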