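import Mathlib

/-! Grand-canonical partition functions for pair kernels: monotonicity and factorization. -/

namespace Vale.Agent.P171

open MeasureTheory Set
open scoped ENNReal

section general

variable {X : Type}

/-- log-weight of a configuration (full double sum, diagonal included) -/
noncomputable def ham (Φ : X → X → ℝ) (μ : ℝ) {ι : Type} [Fintype ι] (x : ι → X) : ℝ :=
  μ * Fintype.card ι - (∑ i, ∑ j, Φ (x i) (x j)) / 2

/-- weight of a configuration -/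
noncomputable def wt (Λ : Set X) (Φ : X → X → ℝ) (μ : ℝ) {ι : Type} [Fintype ι] (x : ι → X) :
    ℝ≥0∞ :=
  (Set.pi univ fun _ => Λ).indicator (fun x => ENNReal.ofReal (Real.exp (ham Φ μ x))) x

lemma wt_of_mem {Λ : Set X} {Φ : X → X → ℝ} {μ : ℝ} {ι : Type} [Fintype ι] {x : ι → X}
    (h : ∀ i, x i ∈ Λ) : wt Λ Φ μ x = ENNReal.ofReal (Real.exp (ham Φ μ x)) :=
  indicator_of_mem (s := Set.pi univ fun _ => Λ) (fun i _ => h i) _

lemma wt_of_not {Λ : Set X} {Φ : X → X → ℝ} {μ : ℝ} {ι : Type} [Fintype ι] {x : ι → X}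
    (h : ¬ ∀ i, x i ∈ Λ) : wt Λ Φ μ x = 0 :=
  indicator_of_notMem (s := Set.pi univ fun _ => Λ) (fun hx => h (fun i => hx i (mem_univ i))) _

variable [MeasureSpace X]

lemma meas_ham {Φ : X → X → ℝ} (hΦ : Measurable (Function.uncurry Φ)) (μ : ℝ) (ι : Type)
    [Fintype ι] : Measurable (ham Φ μ : (ι → X) → ℝ) := by
  unfold ham
  refine measurable_const.sub (Measurable.div_const ?_ _)
  refine Finset.measurable_sum _ (fun i _ => Finset.measurable_sum _ (fun j _ => ?_))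
  have h : Measurable (fun x : ι → X => (x i, x j)) :=
    (measurable_pi_apply i).prodMk (measurable_pi_apply j)
  exact hΦ.comp h

lemma meas_wt {Λ : Set X} (hΛ : MeasurableSet Λ) {Φ : X → X → ℝ}
    (hΦ : Measurable (Function.uncurry Φ)) (μ : ℝ) (ι : Type) [Fintype ι] :
    Measurable (wt Λ Φ μ : (ι → X) → ℝ≥0∞) :=
  (ENNReal.measurable_ofReal.comp (Real.measurable_exp.comp (meas_ham hΦ μ ι))).indicator
    (MeasurableSet.univ_pi (fun _ => hΛ))

/-- canonical integral -/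
noncomputable def II (Λ : Set X) (Φ : X → X → ℝ) (μ : ℝ) (ι : Type) [Fintype ι] : ℝ≥0∞ :=
  ∫⁻ x : ι → X, wt Λ Φ μ x

/-- grand-canonical partition function -/
noncomputable def ZZ (Λ : Set X) (Φ : X → X → ℝ) (μ : ℝ) : ℝ≥0∞ :=
  ∑' N : ℕ, II Λ Φ μ (Fin N) * ((N.factorial : ℝ≥0∞))⁻¹

/-- domination by a finite combination -/
theorem ZZ_le_sum {κ : Type} (s : Finset κ) (w : κ → ℝ) (hw : ∀ k ∈ s, 0 ≤ w k)
    {Λ : Set X} {Φ : X → X → ℝ} {μ : ℝ} (Λ' : κ → Set X) (Φ' : κ → X → X → ℝ) (μ' : κ → ℝ)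
    (hΛ : ∀ k ∈ s, MeasurableSet (Λ' k)) (hΦ : ∀ k ∈ s, Measurable (Function.uncurry (Φ' k)))
    (hsub : ∀ k ∈ s, Λ ⊆ Λ' k)
    (h : ∀ (N : ℕ) (x : Fin N → X), (∀ i, x i ∈ Λ) →
      Real.exp (ham Φ μ x) ≤ ∑ k ∈ s, w k * Real.exp (ham (Φ' k) (μ' k) x)) :
    ZZ Λ Φ μ ≤ ∑ k ∈ s, ENNReal.ofReal (w k) * ZZ (Λ' k) (Φ' k) (μ' k) := by
  have h1 : ∀ N : ℕ, II Λ Φ μ (Fin N) ≤
      ∑ k ∈ s, ENNReal.ofReal (w k) * II (Λ' k) (Φ' k) (μ' k) (Fin N) := by
    intro N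
    have h2 : ∑ k ∈ s, ENNReal.ofReal (w k) * II (Λ' k) (Φ' k) (μ' k) (Fin N)
        = ∫⁻ x : Fin N → X, ∑ k ∈ s, ENNReal.ofReal (w k) * wt (Λ' k) (Φ' k) (μ' k) x := by
      rw [lintegral_finsetSum _
        (fun k hk => (meas_wt (hΛ k hk) (hΦ k hk) _ _).const_mul _)]
      refine Finset.sum_congr rfl (fun k hk => ?_)
      rw [lintegral_const_mul _ (meas_wt (hΛ k hk) (hΦ k hk) _ _)]
      rfl
    rw [h2]
    refine lintegral_mono (fun x => ?_)
    by_cases hx : ∀ i, x i ∈ Λ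
    · rw [wt_of_mem hx]
      refine le_trans (ENNReal.ofReal_le_ofReal (h N x hx)) ?_
      rw [ENNReal.ofReal_sum_of_nonneg (fun k hk => mul_nonneg (hw k hk) (Real.exp_pos _).le)]
      refine Finset.sum_le_sum (fun k hk => ?_)
      rw [wt_of_mem (fun i => hsub k hk (hx i)), ENNReal.ofReal_mul (hw k hk)]
    · rw [wt_of_not hx]; exact zero_le
  unfold ZZ
  simp only [← ENNReal.tsum_mul_left]
  rw [← Summable.tsum_finsetSum (fun _ _ => ENNReal.summable)]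
  refine ENNReal.tsum_le_tsum (fun N => ?_)
  simp only [← mul_assoc]
  rw [← Finset.sum_mul]
  exact mul_le_mul_left (h1 N) _

theorem ZZ_le_mul {Λ Λ' : Set X} {Φ Φ' : X → X → ℝ} {μ μ' c : ℝ} (hΛ : MeasurableSet Λ')
    (hΦ : Measurable (Function.uncurry Φ')) (hsub : Λ ⊆ Λ')
    (h : ∀ (N : ℕ) (x : Fin N → X), (∀ i, x i ∈ Λ) → ham Φ μ x ≤ c + ham Φ' μ' x) :
    ZZ Λ Φ μ ≤ ENNReal.ofReal (Real.exp c) * ZZ Λ' Φ' μ' := by
  have := ZZ_le_sum (Λ := Λ) (Φ := Φ) (μ := μ) ({()} : Finset Unit) (fun _ => Real.exp c)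
    (fun _ _ => (Real.exp_pos _).le) (fun _ => Λ') (fun _ => Φ') (fun _ => μ') (fun _ _ => hΛ)
    (fun _ _ => hΦ) (fun _ _ => hsub) (fun N x hx => by
      rw [Finset.sum_singleton, ← Real.exp_add]
      exact Real.exp_le_exp.2 (h N x hx))
  rwa [Finset.sum_singleton] at this

theorem ZZ_mono {Λ Λ' : Set X} {Φ Φ' : X → X → ℝ} {μ μ' : ℝ} (hΛ : MeasurableSet Λ')
    (hΦ : Measurable (Function.uncurry Φ')) (hsub : Λ ⊆ Λ')
    (h : ∀ (N : ℕ) (x : Fin N → X), (∀ i, x i ∈ Λ) → ham Φ μ x ≤ ham Φ' μ' x) :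
    ZZ Λ Φ μ ≤ ZZ Λ' Φ' μ' := by
  have := ZZ_le_mul (Φ := Φ) (μ := μ) (μ' := μ') (c := 0) hΛ hΦ hsub
    (fun N x hx => by rw [zero_add]; exact h N x hx)
  simpa using this

lemma ZZ_congr {Λ : Set X} {Φ Φ' : X → X → ℝ} {μ : ℝ} (h : ∀ x ∈ Λ, ∀ y ∈ Λ, Φ x y = Φ' x y) :
    ZZ Λ Φ μ = ZZ Λ Φ' μ := by
  unfold ZZ II
  refine tsum_congr (fun N => ?_)
  congr 1
  refine lintegral_congr (fun x => ?_)
  by_cases hx : ∀ i, x i ∈ Λ
  · rw [wt_of_mem hx, wt_of_mem hx]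
    unfold ham
    simp only [h _ (hx _) _ (hx _)]
  · rw [wt_of_not hx, wt_of_not hx]

variable [SigmaFinite (volume : Measure X)]

lemma II_equiv (Λ : Set X) (Φ : X → X → ℝ) (μ : ℝ) {ι ι' : Type} [Fintype ι] [Fintype ι']
    (e : ι ≃ ι') : II Λ Φ μ ι = II Λ Φ μ ι' := by
  unfold II
  rw [← (volume_preserving_arrowCongr' e (MeasurableEquiv.refl X)
    (MeasurePreserving.id _)).lintegral_comp_emb (MeasurableEquiv.measurableEmbedding _)]
  refine lintegral_congr (fun x => ?_)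
  have he : (MeasurableEquiv.arrowCongr' e (MeasurableEquiv.refl X)) x = fun i => x (e.symm i) :=
    rfl
  rw [he]
  by_cases hx : ∀ i, x i ∈ Λ
  · rw [wt_of_mem hx, wt_of_mem (fun i => hx _)]
    unfold ham
    rw [Fintype.card_congr e, Equiv.sum_comp e.symm (fun i => ∑ j, Φ (x i) (x (e.symm j)))]
    have h2 : ∀ i, ∑ j, Φ (x i) (x (e.symm j)) = ∑ j, Φ (x i) (x j) :=
      fun i => Equiv.sum_comp e.symm (fun j => Φ (x i) (x j))
    simp only [h2]
  · rw [wt_of_not hx, wt_of_not (fun h => hx (fun i => by simpa using h (e i)))]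

lemma II_card (Λ : Set X) (Φ : X → X → ℝ) (μ : ℝ) (ι : Type) [Fintype ι] :
    II Λ Φ μ ι = II Λ Φ μ (Fin (Fintype.card ι)) :=
  II_equiv Λ Φ μ (Fintype.equivFin ι)

/-- membership as an opaque predicate -/
def inS {N : ℕ} (S : Finset (Fin N)) : Fin N → Prop := fun i => i ∈ S

instance {N : ℕ} (S : Finset (Fin N)) : DecidablePred (inS S) :=
  fun i => inferInstanceAs (Decidable (i ∈ S))

omit [MeasureSpace X] [SigmaFinite (volume : Measure X)] in
lemma wt_union {Λ₁ Λ₂ : Set X} (hd : Disjoint Λ₁ Λ₂) {Φ : X → X → ℝ}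
    (h0 : ∀ x ∈ Λ₁, ∀ y ∈ Λ₂, Φ x y = 0 ∧ Φ y x = 0) (μ : ℝ) {N : ℕ} (x : Fin N → X) :
    wt (Λ₁ ∪ Λ₂) Φ μ x = ∑ S : Finset (Fin N),
      wt Λ₁ Φ μ (fun i : Subtype (inS S) => x i) *
        wt Λ₂ Φ μ (fun i : {i // ¬ inS S i} => x i) := by
  classical
  by_cases hx : ∀ i, x i ∈ Λ₁ ∪ Λ₂
  · set S0 : Finset (Fin N) := Finset.univ.filter (fun i => x i ∈ Λ₁) with hS0
    have hm : ∀ i, i ∈ S0 ↔ x i ∈ Λ₁ := fun i => by simp [hS0]
    have h1 : ∀ i : Subtype (inS S0), x i ∈ Λ₁ := fun i => (hm i).1 i.2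
    have h2 : ∀ i : {i // ¬ inS S0 i}, x i ∈ Λ₂ := fun i =>
      (hx i).resolve_left (fun h => i.2 ((hm i).2 h))
    rw [Finset.sum_eq_single S0]
    · rw [wt_of_mem hx, wt_of_mem h1, wt_of_mem h2, ← ENNReal.ofReal_mul (Real.exp_pos _).le,
        ← Real.exp_add]
      congr 2
      unfold ham
      have hc : (Fintype.card (Fin N) : ℝ) = Fintype.card (Subtype (inS S0))
          + Fintype.card {i // ¬ inS S0 i} := by
        have := Fintype.sum_subtype_add_sum_subtype (inS S0) (fun _ => (1 : ℝ))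
        simp only [Finset.sum_const, Finset.card_univ, nsmul_eq_mul, mul_one] at this
        exact this.symm
      have hs : ∑ i, ∑ j, Φ (x i) (x j) =
          ∑ i : Subtype (inS S0), ∑ j : Subtype (inS S0), Φ (x i) (x j)
          + ∑ i : {i // ¬ inS S0 i}, ∑ j : {i // ¬ inS S0 i}, Φ (x i) (x j) := by
        rw [← Fintype.sum_subtype_add_sum_subtype (inS S0)]
        congr 1
        · refine Finset.sum_congr rfl (fun i _ => ?_)
          rw [← Fintype.sum_subtype_add_sum_subtype (inS S0),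
            Finset.sum_eq_zero (s := Finset.univ) (f := fun j : {i // ¬ inS S0 i} => Φ (x i) (x j))
              (fun j _ => (h0 _ (h1 i) _ (h2 j)).1), add_zero]
        · refine Finset.sum_congr rfl (fun i _ => ?_)
          rw [← Fintype.sum_subtype_add_sum_subtype (inS S0),
            Finset.sum_eq_zero (s := Finset.univ)
              (f := fun j : Subtype (inS S0) => Φ (x i) (x j))
              (fun j _ => (h0 _ (h1 j) _ (h2 i)).2), zero_add]
      rw [hc, hs]; ring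
    · intro S _ hS
      by_contra hne
      obtain ⟨h3, h4⟩ := mul_ne_zero_iff.1 hne
      have h5 : ∀ i : Subtype (inS S), x i ∈ Λ₁ := by
        by_contra h; exact h3 (wt_of_not h)
      have h6 : ∀ i : {i // ¬ inS S i}, x i ∈ Λ₂ := by
        by_contra h; exact h4 (wt_of_not h)
      apply hS
      ext i
      rw [hm]
      constructor
      · intro hi; exact h5 ⟨i, hi⟩
      · intro hi
        by_contra hi2
        exact Set.disjoint_left.1 hd hi (h6 ⟨i, hi2⟩)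
    · intro h; exact absurd (Finset.mem_univ _) h
  · rw [wt_of_not hx]
    symm
    refine Finset.sum_eq_zero (fun S _ => ?_)
    by_contra hne
    obtain ⟨h3, h4⟩ := mul_ne_zero_iff.1 hne
    have h5 : ∀ i : Subtype (inS S), x i ∈ Λ₁ := by
      by_contra h; exact h3 (wt_of_not h)
    have h6 : ∀ i : {i // ¬ inS S i}, x i ∈ Λ₂ := by
      by_contra h; exact h4 (wt_of_not h)
    apply hx
    intro i
    by_cases hi : i ∈ S
    · exact Or.inl (h5 ⟨i, hi⟩)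
    · exact Or.inr (h6 ⟨i, hi⟩)

lemma II_union {Λ₁ Λ₂ : Set X} (h1 : MeasurableSet Λ₁) (h2 : MeasurableSet Λ₂)
    (hd : Disjoint Λ₁ Λ₂) {Φ : X → X → ℝ} (hΦ : Measurable (Function.uncurry Φ))
    (h0 : ∀ x ∈ Λ₁, ∀ y ∈ Λ₂, Φ x y = 0 ∧ Φ y x = 0) (μ : ℝ) (N : ℕ) :
    II (Λ₁ ∪ Λ₂) Φ μ (Fin N) = ∑ k ∈ Finset.range (N + 1),
      N.choose k • (II Λ₁ Φ μ (Fin k) * II Λ₂ Φ μ (Fin (N - k))) := by
  have hterm : ∀ S : Finset (Fin N),
      ∫⁻ x : Fin N → X, wt Λ₁ Φ μ (fun i : Subtype (inS S) => x i) *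
        wt Λ₂ Φ μ (fun i : {i // ¬ inS S i} => x i)
      = II Λ₁ Φ μ (Fin S.card) * II Λ₂ Φ μ (Fin (N - S.card)) := by
    intro S
    have hmp := volume_preserving_piEquivPiSubtypeProd (fun _ : Fin N => X) (inS S)
    have h3 := hmp.lintegral_comp_emb (MeasurableEquiv.measurableEmbedding _)
      (fun z => wt Λ₁ Φ μ z.1 * wt Λ₂ Φ μ z.2)
    have h4 := lintegral_prod_mul (μ := volume) (ν := volume)
      (meas_wt h1 hΦ μ (Subtype (inS S))).aemeasurable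
      (meas_wt h2 hΦ μ {i // ¬ inS S i}).aemeasurable
    have h5 : Fintype.card (Subtype (inS S)) = S.card :=
      Fintype.card_of_subtype (p := inS S) S (fun _ => Iff.rfl)
    have h6 : Fintype.card {i // ¬ inS S i} = N - S.card := by
      rw [Fintype.card_subtype_compl, h5, Fintype.card_fin]
    rw [← h5, ← II_card, h5, ← h6, ← II_card]
    exact h3.trans h4
  have hmeas : ∀ S : Finset (Fin N), Measurable (fun x : Fin N → X =>
      wt Λ₁ Φ μ (fun i : Subtype (inS S) => x i) *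
        wt Λ₂ Φ μ (fun i : {i // ¬ inS S i} => x i)) := fun S =>
    ((meas_wt h1 hΦ μ _).comp (measurable_pi_lambda _ (fun i => measurable_pi_apply _))).mul
      ((meas_wt h2 hΦ μ _).comp (measurable_pi_lambda _ (fun i => measurable_pi_apply _)))
  have h7 : II (Λ₁ ∪ Λ₂) Φ μ (Fin N) = ∑ S : Finset (Fin N),
      II Λ₁ Φ μ (Fin S.card) * II Λ₂ Φ μ (Fin (N - S.card)) := by
    unfold II
    simp only [wt_union hd h0]
    rw [lintegral_finsetSum _ (fun S _ => hmeas S)]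
    exact Finset.sum_congr rfl (fun S _ => hterm S)
  rw [h7, ← Finset.powerset_univ,
    Finset.sum_powerset_apply_card (fun k => II Λ₁ Φ μ (Fin k) * II Λ₂ Φ μ (Fin (N - k)))]
  simp

lemma tsum_mul_tsum_range (f g : ℕ → ℝ≥0∞) :
    (∑' n, f n) * ∑' n, g n = ∑' n, ∑ k ∈ Finset.range (n + 1), f k * g (n - k) := by
  have h1 : (∑' n, f n) * ∑' n, g n = ∑' p : ℕ × ℕ, f p.1 * g p.2 := by
    rw [ENNReal.tsum_prod (f := fun a b => f a * g b), ← ENNReal.tsum_mul_right]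
    exact tsum_congr (fun a => ENNReal.tsum_mul_left.symm)
  rw [h1, ← Finset.HasAntidiagonal.sigmaAntidiagonalEquivProd.tsum_eq, ENNReal.tsum_sigma']
  refine tsum_congr (fun n => ?_)
  rw [← Finset.Nat.sum_antidiagonal_eq_sum_range_succ (fun a b => f a * g b),
    ← Finset.tsum_subtype]
  rfl

theorem ZZ_union {Λ₁ Λ₂ : Set X} (h1 : MeasurableSet Λ₁) (h2 : MeasurableSet Λ₂)
    (hd : Disjoint Λ₁ Λ₂) {Φ : X → X → ℝ} (hΦ : Measurable (Function.uncurry Φ))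
    (h0 : ∀ x ∈ Λ₁, ∀ y ∈ Λ₂, Φ x y = 0 ∧ Φ y x = 0) (μ : ℝ) :
    ZZ (Λ₁ ∪ Λ₂) Φ μ = ZZ Λ₁ Φ μ * ZZ Λ₂ Φ μ := by
  unfold ZZ
  rw [tsum_mul_tsum_range]
  refine tsum_congr (fun N => ?_)
  rw [II_union h1 h2 hd hΦ h0, Finset.sum_mul]
  refine Finset.sum_congr rfl (fun k hk => ?_)
  have hk' : k ≤ N := Nat.lt_succ_iff.1 (Finset.mem_range.1 hk)
  have h3 : (N.factorial : ℝ≥0∞) = N.choose k * (k.factorial * (N - k).factorial) := by
    rw [← Nat.choose_mul_factorial_mul_factorial hk']; push_cast; ring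
  have h4 : (N.choose k : ℝ≥0∞) ≠ 0 := by exact_mod_cast (Nat.choose_pos hk').ne'
  have h5 : (k.factorial : ℝ≥0∞) ≠ 0 := by exact_mod_cast (Nat.factorial_pos k).ne'
  have h6 : (N.choose k : ℝ≥0∞) * ((N.factorial : ℝ≥0∞))⁻¹
      = ((k.factorial : ℝ≥0∞))⁻¹ * (((N - k).factorial : ℝ≥0∞))⁻¹ := by
    rw [h3, ENNReal.mul_inv (Or.inl h4) (Or.inl (ENNReal.natCast_ne_top _)), ← mul_assoc,
      ENNReal.mul_inv_cancel h4 (ENNReal.natCast_ne_top _), one_mul,
      ENNReal.mul_inv (Or.inl h5) (Or.inl (ENNReal.natCast_ne_top _))]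
  rw [nsmul_eq_mul]
  calc (N.choose k : ℝ≥0∞) * (II Λ₁ Φ μ (Fin k) * II Λ₂ Φ μ (Fin (N - k))) *
        ((N.factorial : ℝ≥0∞))⁻¹
      = (II Λ₁ Φ μ (Fin k) * II Λ₂ Φ μ (Fin (N - k))) *
        ((N.choose k : ℝ≥0∞) * ((N.factorial : ℝ≥0∞))⁻¹) := by ring
    _ = _ := by rw [h6]; ring

lemma II_zero (Λ : Set X) (Φ : X → X → ℝ) (μ : ℝ) : II Λ Φ μ (Fin 0) = 1 := by
  unfold II
  have : ∀ x : Fin 0 → X, wt Λ Φ μ x = 1 := fun x => by
    rw [wt_of_mem (fun i => i.elim0)]; simp [ham]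
  simp only [this]
  rw [lintegral_one, volume_pi, Measure.pi_univ]
  simp

lemma II_free {Λ : Set X} (hΛ : MeasurableSet Λ) (μ : ℝ) (N : ℕ) :
    II Λ (fun _ _ => 0) μ (Fin N) = ENNReal.ofReal (Real.exp μ ^ N) * volume Λ ^ N := by
  unfold II wt
  have : (fun x : Fin N → X => ENNReal.ofReal (Real.exp (ham (fun _ _ => 0) μ x)))
      = fun _ => ENNReal.ofReal (Real.exp μ ^ N) := by
    funext x
    simp only [ham, Finset.sum_const_zero, zero_div, sub_zero, Fintype.card_fin]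
    rw [mul_comm, Real.exp_nat_mul]
  rw [this, lintegral_indicator_const (MeasurableSet.univ_pi (fun _ => hΛ)), volume_pi,
    Measure.pi_pi]
  simp

theorem ZZ_free {Λ : Set X} (hΛ : MeasurableSet Λ) (μ : ℝ) {v : ℝ} (hv : 0 ≤ v)
    (hvol : volume Λ = ENNReal.ofReal v) :
    ZZ Λ (fun _ _ => 0) μ = ENNReal.ofReal (Real.exp (Real.exp μ * v)) := by
  unfold ZZ
  have h1 := NormedSpace.expSeries_div_hasSum_exp (Real.exp μ * v)
  rw [← Real.exp_eq_exp_ℝ] at h1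
  rw [← h1.tsum_eq, ENNReal.ofReal_tsum_of_nonneg (fun n => by positivity) h1.summable]
  refine tsum_congr (fun N => ?_)
  rw [II_free hΛ, hvol, ← ENNReal.ofReal_pow hv, ← ENNReal.ofReal_mul (by positivity),
    ENNReal.ofReal_div_of_pos (by positivity), ENNReal.ofReal_natCast, mul_pow, div_eq_mul_inv]

lemma one_le_ZZ (Λ : Set X) (Φ : X → X → ℝ) (μ : ℝ) : 1 ≤ ZZ Λ Φ μ := by
  unfold ZZ
  refine le_trans ?_ (ENNReal.le_tsum 0)
  rw [II_zero]; simp

lemma ZZ_empty (Φ : X → X → ℝ) (μ : ℝ) : ZZ (∅ : Set X) Φ μ = 1 := by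
  refine le_antisymm ?_ (one_le_ZZ _ _ _)
  rw [ZZ_congr (Φ' := fun _ _ => 0) (fun x hx => absurd hx (notMem_empty x)),
    ZZ_free MeasurableSet.empty μ le_rfl (by simp)]
  simp

lemma ZZ_one_le {Λ : Set X} (hΛ : MeasurableSet Λ) {Φ : X → X → ℝ} {c : ℝ}
    (h : ∀ x, Φ x x = c) (μ : ℝ) :
    ENNReal.ofReal (Real.exp (μ - c / 2)) * volume Λ ≤ ZZ Λ Φ μ := by
  unfold ZZ
  refine le_trans (le_of_eq ?_) (ENNReal.le_tsum 1)
  have h1 : II Λ Φ μ (Fin 1) = II Λ (fun _ _ => 0) (μ - c / 2) (Fin 1) := by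
    unfold II
    refine lintegral_congr (fun x => ?_)
    by_cases hx : ∀ i, x i ∈ Λ
    · rw [wt_of_mem hx, wt_of_mem hx]; simp [ham, h]
    · rw [wt_of_not hx, wt_of_not hx]
  rw [h1, II_free hΛ]; simp

/-- factorization over labelled blocks -/
theorem ZZ_biUnion {κ : Type} [DecidableEq κ] (lab : X → κ) (B : κ → Set X)
    (hB : ∀ k, MeasurableSet (B k)) (hlab : ∀ k, ∀ x ∈ B k, lab x = k) {Φ : X → X → ℝ}
    (hΦ : Measurable (Function.uncurry (fun x y => if lab x = lab y then Φ x y else 0)))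
    (μ : ℝ) (S : Finset κ) :
    ZZ (⋃ k ∈ S, B k) (fun x y => if lab x = lab y then Φ x y else 0) μ
      = ∏ k ∈ S, ZZ (B k) Φ μ := by
  induction S using Finset.induction_on with
  | empty => simp [ZZ_empty]
  | insert a S ha ih =>
    have hne : ∀ x ∈ B a, ∀ y ∈ ⋃ k ∈ S, B k, lab x ≠ lab y := by
      intro x hx y hy e
      simp only [mem_iUnion] at hy
      obtain ⟨k, hk, hy⟩ := hy
      rw [hlab a x hx, hlab k y hy] at e
      exact ha (e ▸ hk)
    rw [Finset.set_biUnion_insert, Finset.prod_insert ha, ZZ_union (hB a)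
      (Finset.measurableSet_biUnion S (fun k _ => hB k))
      (Set.disjoint_left.2 (fun x hx hy => hne x hx x hy rfl)) hΦ
      (fun x hx y hy => ⟨if_neg (hne x hx y hy), if_neg (hne x hx y hy).symm⟩), ih,
      ZZ_congr (Φ' := Φ) (fun x hx y hy => if_pos (by rw [hlab a x hx, hlab a y hy]))]

/-- invariance under a measure preserving equivalence -/
theorem ZZ_map (e : X ≃ᵐ X) (he : MeasurePreserving e volume volume) (Λ : Set X)
    (Φ : X → X → ℝ) (μ : ℝ) :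
    ZZ (e ⁻¹' Λ) (fun x y => Φ (e x) (e y)) μ = ZZ Λ Φ μ := by
  unfold ZZ II
  refine tsum_congr (fun N => ?_)
  congr 1
  rw [← (volume_preserving_arrowCongr' (Equiv.refl (Fin N)) e he).lintegral_comp_emb
    (MeasurableEquiv.measurableEmbedding _) (fun x => wt Λ Φ μ x)]
  refine lintegral_congr (fun x => ?_)
  have h1 : (MeasurableEquiv.arrowCongr' (Equiv.refl (Fin N)) e) x = fun i => e (x i) := rfl
  rw [h1]
  by_cases hx : ∀ i, x i ∈ e ⁻¹' Λ
  · rw [wt_of_mem hx, wt_of_mem (Λ := Λ) (x := fun i => e (x i)) hx]; rfl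
  · rw [wt_of_not hx, wt_of_not (Λ := Λ) (x := fun i => e (x i)) hx]

end general

end Vale.Agent.P171
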