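import Vale.Agent.P171.Defs
import Vale.Agent.P171.Part

/-! Cubes, grids and counting. -/

namespace Vale.Agent.P171

open MeasureTheory Set Metric
open scoped ENNReal

/-- three-dimensional space -/
abbrev E3 := EuclideanSpace ℝ (Fin 3)

/-- radial kernel -/
noncomputable def rad (φ : ℝ → ℝ) : E3 → E3 → ℝ := fun x y => φ (dist x y)

lemma meas_rad {φ : ℝ → ℝ} (h : Measurable φ) : Measurable (Function.uncurry (rad φ)) :=
  h.comp measurable_dist

/-- translated cube -/
def tcube (v : Fin 3 → ℝ) (L : ℝ) : Set E3 := {x | ∀ a, x a - v a ∈ Icc 0 L}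

lemma tcube_eq (v : Fin 3 → ℝ) (L : ℝ) :
    tcube v L = WithLp.ofLp ⁻¹' (Icc v (fun a => v a + L)) := by
  ext x
  simp only [tcube, mem_ofPred_eq, mem_preimage, mem_Icc, Pi.le_def]
  constructor
  · intro h; exact ⟨fun a => by linarith [(h a).1], fun a => by linarith [(h a).2]⟩
  · intro h a; exact ⟨by linarith [h.1 a], by linarith [h.2 a]⟩

lemma meas_tcube (v : Fin 3 → ℝ) (L : ℝ) : MeasurableSet (tcube v L) := by
  rw [tcube_eq]
  exact (PiLp.volume_preserving_ofLp (Fin 3)).measurable measurableSet_Icc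

lemma vol_tcube (v : Fin 3 → ℝ) {L : ℝ} (hL : 0 ≤ L) :
    volume (tcube v L) = ENNReal.ofReal (L ^ 3) := by
  rw [tcube_eq, (PiLp.volume_preserving_ofLp (Fin 3)).measure_preimage
    measurableSet_Icc.nullMeasurableSet, Real.volume_Icc_pi]
  simp [ENNReal.ofReal_pow hL]

lemma cube_eq (L : ℝ) : cube L = tcube 0 L := by
  ext x; simp [cube, tcube]

lemma meas_cube (L : ℝ) : MeasurableSet (cube L) := by rw [cube_eq]; exact meas_tcube _ _

lemma vol_cube {L : ℝ} (hL : 0 ≤ L) : volume (cube L) = ENNReal.ofReal (L ^ 3) := by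
  rw [cube_eq, vol_tcube _ hL]

lemma ZZ_tcube (v : Fin 3 → ℝ) (L : ℝ) (φ : ℝ → ℝ) (μ : ℝ) :
    ZZ (tcube v L) (rad φ) μ = ZZ (cube L) (rad φ) μ := by
  set w : E3 := WithLp.toLp 2 v with hw
  have h := ZZ_map (MeasurableEquiv.addRight (-w)) (measurePreserving_add_right volume (-w))
    (cube L) (rad φ) μ
  rw [← h]
  congr 1
  · funext x y
    simp [rad, MeasurableEquiv.addRight]

/-- label of the grid cell of mesh `h` and diagonal shift `s` -/
noncomputable def blk (h s : ℝ) (x : E3) : Fin 3 → ℤ := fun a => ⌊(x a - s) / h⌋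

lemma meas_blk (h s : ℝ) : Measurable (blk h s) := by
  refine measurable_pi_lambda _ (fun a => Int.measurable_floor.comp ?_)
  fun_prop

lemma meas_same (h s : ℝ) {Φ : E3 → E3 → ℝ} (hΦ : Measurable (Function.uncurry Φ)) :
    Measurable (Function.uncurry (fun x y => if blk h s x = blk h s y then Φ x y else 0)) := by
  refine Measurable.ite ?_ hΦ measurable_const
  exact measurableSet_eq_fun ((meas_blk h s).comp measurable_fst)
    ((meas_blk h s).comp measurable_snd)

lemma blk_eq_iff {h : ℝ} (hh : 0 < h) (s : ℝ) (x : E3) (k : Fin 3 → ℤ) :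
    blk h s x = k ↔ ∀ a, s + h * k a ≤ x a ∧ x a < s + h * k a + h := by
  rw [funext_iff]
  refine forall_congr' (fun a => ?_)
  unfold blk
  rw [Int.floor_eq_iff, le_div_iff₀ hh, div_lt_iff₀ hh]
  constructor
  · rintro ⟨h1, h2⟩; constructor <;> linarith
  · rintro ⟨h1, h2⟩; constructor <;> linarith

lemma meas_cell (h s : ℝ) (k : Fin 3 → ℤ) : MeasurableSet (blk h s ⁻¹' {k}) :=
  meas_blk h s (measurableSet_singleton k)

lemma vol_cell {h : ℝ} (hh : 0 < h) (s : ℝ) (k : Fin 3 → ℤ) :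
    volume (blk h s ⁻¹' {k}) = ENNReal.ofReal (h ^ 3) := by
  have : blk h s ⁻¹' {k} =
      WithLp.ofLp ⁻¹' (Set.pi univ (fun a => Ico (s + h * k a) (s + h * k a + h))) := by
    ext x
    rw [mem_preimage, mem_singleton_iff, blk_eq_iff hh]
    simp [Set.mem_pi]
  rw [this, (PiLp.volume_preserving_ofLp (Fin 3)).measure_preimage
    (MeasurableSet.univ_pi (fun _ => measurableSet_Ico)).nullMeasurableSet, Real.volume_pi_Ico]
  simp [ENNReal.ofReal_pow hh.le]

lemma cell_subset {h : ℝ} (hh : 0 < h) (s : ℝ) (k : Fin 3 → ℤ) :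
    blk h s ⁻¹' {k} ⊆ tcube (fun a => s + h * k a) h := by
  intro x hx a
  have := (blk_eq_iff hh s x k).1 hx a
  exact ⟨by linarith [this.1], by linarith [this.2]⟩

lemma coord_le_dist (x y : E3) (a : Fin 3) : |x a - y a| ≤ dist x y := by
  rw [← Real.dist_eq]; exact PiLp.dist_apply_le x y a

lemma dist_le_of_blk {h : ℝ} (hh : 0 < h) {s : ℝ} {x y : E3} (e : blk h s x = blk h s y) :
    dist x y ≤ 2 * h := by
  have hx := (blk_eq_iff hh s x _).1 e
  have hy := (blk_eq_iff hh s y _).1 rfl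
  rw [EuclideanSpace.dist_eq, Real.sqrt_le_left (by positivity)]
  have h1 : ∀ a, dist (x a) (y a) ^ 2 ≤ h ^ 2 := by
    intro a
    rw [Real.dist_eq, sq_abs]
    apply sq_le_sq'
    · linarith [(hx a).1, (hy a).2]
    · linarith [(hx a).2, (hy a).1]
  rw [Fin.sum_univ_three]
  nlinarith [h1 0, h1 1, h1 2]

lemma card_sq_le {ι κ : Type} [DecidableEq κ] (lab : ι → κ) (J : Finset ι) (T : Finset κ)
    (h : ∀ i ∈ J, lab i ∈ T) :
    (J.card : ℝ) ^ 2 ≤ T.card * ∑ i ∈ J, ∑ j ∈ J, if lab i = lab j then (1 : ℝ) else 0 := by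
  have h1 : (J.card : ℝ) = ∑ k ∈ T, ((J.filter (fun i => lab i = k)).card : ℝ) := by
    rw [Finset.card_eq_sum_card_fiberwise (f := lab) (s := J) (t := T) h]; push_cast; rfl
  have h2 : ∑ i ∈ J, ∑ j ∈ J, (if lab i = lab j then (1 : ℝ) else 0)
      = ∑ k ∈ T, ((J.filter (fun i => lab i = k)).card : ℝ) ^ 2 := by
    rw [← Finset.sum_fiberwise_of_maps_to (s := J) (t := T) (g := lab) h]
    refine Finset.sum_congr rfl (fun k _ => ?_)
    rw [Finset.sum_congr rfl (g := fun _ => ((J.filter (fun i => lab i = k)).card : ℝ))]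
    · rw [Finset.sum_const, nsmul_eq_mul, sq]
    · intro i hi
      rw [(Finset.mem_filter.1 hi).2, Finset.card_filter]
      push_cast
      exact Finset.sum_congr rfl (fun j _ => by simp only [eq_comm])
  rw [h1, h2]
  exact sq_sum_le_card_mul_sum_sq

/-- number of ordered pairs in a common cell -/
noncomputable def SS (h s : ℝ) {N : ℕ} (x : Fin N → E3) : ℝ :=
  ∑ i, ∑ j, if blk h s (x i) = blk h s (x j) then (1 : ℝ) else 0

lemma SS_nonneg (h s : ℝ) {N : ℕ} (x : Fin N → E3) : 0 ≤ SS h s x :=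
  Finset.sum_nonneg (fun _ _ => Finset.sum_nonneg (fun _ _ => by split_ifs <;> norm_num))

/-- labels of the cells meeting a cube -/
noncomputable def labels (n : ℕ) : Finset (Fin 3 → ℤ) :=
  Fintype.piFinset (fun _ => Finset.Ico (-1 : ℤ) n)

lemma card_labels (n : ℕ) : (labels n).card = (n + 1) ^ 3 := by
  unfold labels
  rw [Fintype.card_piFinset]
  simp

lemma blk_mem_labels {h s L : ℝ} (hh : 0 < h) (hs0 : 0 ≤ s) (hs1 : s ≤ h) {n : ℕ}
    (hn : L < n * h) {x : E3} (hx : x ∈ cube L) : blk h s x ∈ labels n := by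
  unfold labels
  rw [Fintype.mem_piFinset]
  intro a
  rw [Finset.mem_Ico]
  unfold blk
  constructor
  · rw [Int.le_floor, le_div_iff₀ hh]
    push_cast
    linarith [(hx a).1]
  · rw [Int.floor_lt, div_lt_iff₀ hh]
    push_cast
    linarith [(hx a).2]

lemma sq_le_SS {L : ℝ} (hL : 1 ≤ L) {N : ℕ} {x : Fin N → E3} (hx : ∀ i, x i ∈ cube L) :
    (N : ℝ) ^ 2 ≤ 27 * L ^ 3 * SS 1 0 x := by
  have h1 := card_sq_le (fun i => blk 1 0 (x i)) Finset.univ (labels (⌊L⌋₊ + 1))
    (fun i _ => blk_mem_labels one_pos le_rfl zero_le_one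
      (by push_cast; linarith [Nat.lt_floor_add_one L]) (hx i))
  rw [card_labels, Finset.card_univ, Fintype.card_fin] at h1
  have h2 : (((⌊L⌋₊ + 1 + 1) ^ 3 : ℕ) : ℝ) ≤ 27 * L ^ 3 := by
    push_cast
    have h3 : (⌊L⌋₊ : ℝ) ≤ L := Nat.floor_le (by linarith)
    calc ((⌊L⌋₊ : ℝ) + 1 + 1) ^ 3 ≤ (3 * L) ^ 3 :=
          pow_le_pow_left₀ (by positivity) (by linarith) 3
      _ = 27 * L ^ 3 := by ring
  exact le_trans h1 (mul_le_mul_of_nonneg_right h2 (SS_nonneg 1 0 x))

/-- a close pair is separated by few of the shifted grids -/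
lemma sep_coord {h : ℝ} (hh : 0 < h) {j : ℕ} (hj : 0 < j) {u v : ℝ} (huv : |u - v| ≤ h / j) :
    ((Finset.range j).filter
      (fun s : ℕ => ⌊(u - s * h / j) / h⌋ ≠ ⌊(v - s * h / j) / h⌋)).card ≤ 1 := by
  have hj' : (0 : ℝ) < j := by exact_mod_cast hj
  wlog huv' : u ≤ v generalizing u v
  · have := this (u := v) (v := u) (by rwa [abs_sub_comm]) (by linarith)
    simpa only [ne_comm] using this
  have hd : v - u ≤ h / j := by rw [abs_sub_comm, abs_of_nonneg (by linarith)] at huv; exact huv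
  have key : ∀ s : ℕ, ⌊(u - s * h / j) / h⌋ ≠ ⌊(v - s * h / j) / h⌋ →
      ∃ m : ℤ, u * j / h < m * j + s ∧ (m * j + s : ℝ) ≤ v * j / h := by
    intro s hs
    refine ⟨⌊(v - s * h / j) / h⌋, ?_, ?_⟩
    · have h1 : ⌊(u - s * h / j) / h⌋ ≤ ⌊(v - s * h / j) / h⌋ :=
        Int.floor_mono (div_le_div_of_nonneg_right (by linarith) hh.le)
      have h2 : ⌊(u - s * h / j) / h⌋ < ⌊(v - s * h / j) / h⌋ := lt_of_le_of_ne h1 hs
      rw [Int.floor_lt] at h2
      have h3 : (u - s * h / j) / h * j = u * j / h - s := by field_simp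
      nlinarith
    · have h2 := Int.floor_le ((v - s * h / j) / h)
      have h3 : (v - s * h / j) / h * j = v * j / h - s := by field_simp
      nlinarith
  rw [Finset.card_le_one]
  intro s hs t ht
  obtain ⟨hs1, hs2⟩ := Finset.mem_filter.1 hs
  obtain ⟨ht1, ht2⟩ := Finset.mem_filter.1 ht
  obtain ⟨m, h1, h2⟩ := key s hs2
  obtain ⟨n, h3, h4⟩ := key t ht2
  have h5 : v * j / h - u * j / h ≤ 1 := by
    rw [← sub_div, div_le_one hh, ← sub_mul]
    rwa [le_div_iff₀ hj'] at hd
  have h6 : m * j + s < n * j + t + (1 : ℤ) := by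
    have : (m * j + s : ℝ) < n * j + t + 1 := by linarith
    exact_mod_cast this
  have h7 : n * j + t < m * j + s + (1 : ℤ) := by
    have : (n * j + t : ℝ) < m * j + s + 1 := by linarith
    exact_mod_cast this
  have h8 : m * j + s = n * j + (t : ℤ) := by omega
  have h9 : (s : ℤ) % j = (t : ℤ) % j := by
    have a1 : (m * j + s) % j = (s : ℤ) % j := by rw [add_comm, Int.add_mul_emod_self_right]
    have a2 : (n * j + t) % j = (t : ℤ) % j := by rw [add_comm, Int.add_mul_emod_self_right]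
    rw [← a1, ← a2, h8]
  rw [Finset.mem_range] at hs1 ht1
  rw [Int.emod_eq_of_lt (by positivity) (by exact_mod_cast hs1),
    Int.emod_eq_of_lt (by positivity) (by exact_mod_cast ht1)] at h9
  exact_mod_cast h9

lemma same_count {h : ℝ} (hh : 0 < h) {j : ℕ} (hj : 0 < j) {x y : E3} (hxy : dist x y ≤ h / j) :
    (j : ℝ) - 3 ≤ ∑ s ∈ Finset.range j,
      if blk h (s * h / j) x = blk h (s * h / j) y then (1 : ℝ) else 0 := by
  have h1 : ((Finset.range j).filter
      (fun s : ℕ => ¬ blk h (s * h / j) x = blk h (s * h / j) y)).card ≤ 3 := by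
    have hsub : (Finset.range j).filter
        (fun s : ℕ => ¬ blk h (s * h / j) x = blk h (s * h / j) y) ⊆
        Finset.univ.biUnion (fun a : Fin 3 => (Finset.range j).filter
          (fun s : ℕ => ⌊(x a - s * h / j) / h⌋ ≠ ⌊(y a - s * h / j) / h⌋)) := by
      intro s hs
      obtain ⟨h2, h3⟩ := Finset.mem_filter.1 hs
      rw [funext_iff] at h3
      push Not at h3
      obtain ⟨a, ha⟩ := h3
      exact Finset.mem_biUnion.2 ⟨a, Finset.mem_univ a, Finset.mem_filter.2 ⟨h2, ha⟩⟩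
    refine le_trans (Finset.card_le_card hsub) (le_trans Finset.card_biUnion_le ?_)
    refine le_trans (Finset.sum_le_sum (fun a _ =>
      sep_coord hh hj (le_trans (coord_le_dist x y a) hxy))) (by simp)
  have h2 := Finset.card_filter_add_card_filter_not (s := Finset.range j)
    (fun s : ℕ => blk h (s * h / j) x = blk h (s * h / j) y)
  rw [Finset.card_range] at h2
  rw [Finset.sum_boole]
  have h3 : (j : ℝ) ≤ ((Finset.range j).filter
      (fun s : ℕ => blk h (s * h / j) x = blk h (s * h / j) y)).card + 3 := by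
    exact_mod_cast (by omega)
  linarith

end Vale.Agent.P171
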