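import Mathlib

/-! Propagation of an approximate kink under the mean-field transform. -/

namespace Vale.Agent.P171

open Set Filter Topology

/-- `p` has the approximate subgradients `α` and `β` at `μ₀`, with error `η`. -/
def Kink (p : ℝ → ℝ) (μ₀ α β η : ℝ) : Prop :=
  ∀ s, p μ₀ - η + α * (s - μ₀) ≤ p s ∧ p μ₀ - η + β * (s - μ₀) ≤ p s

lemma exists_max {f : ℝ → ℝ} (hf : Continuous f) {T : ℝ} (hT : 0 ≤ T)
    (h : ∀ x, T < |x| → f x ≤ f 0) : ∃ x, |x| ≤ T ∧ ∀ y, f y ≤ f x := by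
  obtain ⟨x, hx, hmax⟩ := (isCompact_Icc (a := -T) (b := T)).exists_isMaxOn
    ⟨0, by constructor <;> linarith⟩ hf.continuousOn
  refine ⟨x, abs_le.2 hx, fun y => ?_⟩
  rcases le_or_gt |y| T with hy | hy
  · exact hmax (abs_le.1 hy)
  · exact le_trans (h y hy) (hmax ⟨by linarith, hT⟩)

lemma le_of_small {a b c : ℝ} (hc : 0 ≤ c) (h : ∀ t, 0 < t → t ≤ 1 → a ≤ b + t * c) : a ≤ b := by
  apply le_of_forall_pos_le_add
  intro ε hε
  have h1 := h (min 1 (ε / (c + 1))) (lt_min one_pos (by positivity)) (min_le_left _ _)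
  have h2 : min 1 (ε / (c + 1)) * c ≤ ε / (c + 1) * c :=
    mul_le_mul_of_nonneg_right (min_le_right _ _) hc
  have h3 : ε / (c + 1) * c ≤ ε := by
    rw [div_mul_eq_mul_div, div_le_iff₀ (by positivity)]; nlinarith
  linarith

lemma sub_of_quad_lower {f : ℝ → ℝ} (hf : ConvexOn ℝ univ f) {x m c : ℝ} (hc : 0 ≤ c)
    (h : ∀ y, f x + m * (y - x) - c * (y - x) ^ 2 ≤ f y) (y : ℝ) : f x + m * (y - x) ≤ f y := by
  apply le_of_small (c := c * (y - x) ^ 2) (by positivity)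
  intro t ht0 ht1
  have h1 := hf.2 (mem_univ x) (mem_univ y) (show 0 ≤ 1 - t by linarith) ht0.le (by ring)
  simp only [smul_eq_mul] at h1
  have h2 := h ((1 - t) * x + t * y)
  have h3 : (1 - t) * x + t * y - x = t * (y - x) := by ring
  rw [h3] at h2
  have h4 : t * (f x + m * (y - x)) ≤ t * (f y + t * (c * (y - x) ^ 2)) := by nlinarith
  exact le_of_mul_le_mul_left h4 ht0

lemma sub_of_quad_upper {f : ℝ → ℝ} (hf : ConvexOn ℝ univ f) {x m c : ℝ} (hc : 0 ≤ c)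
    (h : ∀ y, f y ≤ f x + m * (y - x) + c * (y - x) ^ 2) (y : ℝ) : f x + m * (y - x) ≤ f y := by
  apply sub_of_quad_lower hf hc
  intro z
  have h1 := hf.2 (mem_univ z) (mem_univ (2 * x - z)) (show (0 : ℝ) ≤ 1 / 2 by norm_num)
    (show (0 : ℝ) ≤ 1 / 2 by norm_num) (by norm_num)
  simp only [smul_eq_mul] at h1
  have h2 : 1 / 2 * z + 1 / 2 * (2 * x - z) = x := by ring
  rw [h2] at h1
  have h3 := h (2 * x - z)
  nlinarith

lemma cont_of_convex {f : ℝ → ℝ} (hf : ConvexOn ℝ univ f) : Continuous f :=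
  continuousOn_univ.1 (hf.continuousOn isOpen_univ)

lemma avoid {p : ℝ → ℝ} (hp : ConvexOn ℝ univ p) {b μ₀ α β η δ s m : ℝ} (hb : 0 < b)
    (hk : Kink p μ₀ α β η) (hδ : 0 < δ) (hη : 2 * η ≤ b * δ ^ 2)
    (hup : ∀ y, p y ≤ p s + m * (y - s) + 1 / (2 * b) * (y - s) ^ 2) :
    m ≤ α + δ ∨ β - δ ≤ m := by
  by_contra hcon
  push Not at hcon
  obtain ⟨h3, h4⟩ := hcon
  have h5 := sub_of_quad_upper hp (by positivity) hup μ₀
  rcases le_total μ₀ s with h6 | h6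
  · have h7 := hup (s + b * (β - m))
    have h8 := (hk (s + b * (β - m))).2
    have h9 : 1 / (2 * b) * (s + b * (β - m) - s) ^ 2 = b * (β - m) ^ 2 / 2 := by
      field_simp; ring
    rw [h9] at h7
    have h10 : 0 ≤ (β - m) * (s - μ₀) := mul_nonneg (by linarith) (by linarith)
    have h11 : δ ^ 2 < (β - m) ^ 2 := by nlinarith
    have h12 := mul_lt_mul_of_pos_left h11 hb
    nlinarith
  · have h7 := hup (s - b * (m - α))
    have h8 := (hk (s - b * (m - α))).1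
    have h9 : 1 / (2 * b) * (s - b * (m - α) - s) ^ 2 = b * (m - α) ^ 2 / 2 := by
      field_simp; ring
    rw [h9] at h7
    have h10 : 0 ≤ (m - α) * (μ₀ - s) := mul_nonneg (by linarith) (by linarith)
    have h11 : δ ^ 2 < (m - α) ^ 2 := by nlinarith
    have h12 := mul_lt_mul_of_pos_left h11 hb
    nlinarith

lemma kink_of_avoid {M mm : ℝ → ℝ} {α β ρ μ₁ : ℝ} (h1 : α < ρ) (h2 : ρ < β)
    (hsubM : ∀ μ μ', M μ + mm μ * (μ' - μ) ≤ M μ') (havoid : ∀ μ, mm μ ≤ α ∨ β ≤ mm μ)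
    (hmin : ∀ z, ρ * z - M z ≤ ρ * μ₁ - M μ₁) (μ : ℝ) :
    M μ₁ + α * (μ - μ₁) ≤ M μ ∧ M μ₁ + β * (μ - μ₁) ≤ M μ := by
  have hright : ∀ μ, μ₁ ≤ μ → M μ₁ + β * (μ - μ₁) ≤ M μ := by
    intro μ hμ
    rcases hμ.eq_or_lt with e | e
    · rw [e]; simp
    apply le_of_small (c := (β - ρ) * (μ - μ₁)) (mul_nonneg (by linarith) (by linarith))
    intro t ht0 ht1
    obtain ⟨z, hz⟩ : ∃ z, z = μ₁ + t * (μ - μ₁) := ⟨_, rfl⟩
    have h3 : 0 < z - μ₁ := by rw [hz, add_sub_cancel_left]; exact mul_pos ht0 (by linarith)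
    have h4 := hsubM z μ₁
    have h5 := hmin z
    have h6 : ρ ≤ mm z := by
      by_contra h7
      push Not at h7
      nlinarith
    have h8 : β ≤ mm z := (havoid z).resolve_left (by linarith)
    have h9 := hsubM z μ
    have h10 : 0 ≤ μ - z := by rw [hz]; nlinarith
    have h11 := mul_le_mul_of_nonneg_right h8 h10
    have h12 : t * ((β - ρ) * (μ - μ₁)) = (β - ρ) * (z - μ₁) := by rw [hz]; ring
    rw [h12]
    nlinarith
  have hleft : ∀ μ, μ ≤ μ₁ → M μ₁ + α * (μ - μ₁) ≤ M μ := by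
    intro μ hμ
    rcases hμ.eq_or_lt with e | e
    · rw [e]; simp
    apply le_of_small (c := (ρ - α) * (μ₁ - μ)) (mul_nonneg (by linarith) (by linarith))
    intro t ht0 ht1
    obtain ⟨z, hz⟩ : ∃ z, z = μ₁ - t * (μ₁ - μ) := ⟨_, rfl⟩
    have h3 : 0 < μ₁ - z := by rw [hz, sub_sub_cancel]; exact mul_pos ht0 (by linarith)
    have h4 := hsubM z μ₁
    have h5 := hmin z
    have h6 : mm z ≤ ρ := by
      by_contra h7
      push Not at h7
      nlinarith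
    have h8 : mm z ≤ α := (havoid z).resolve_right (by linarith)
    have h9 := hsubM z μ
    have h10 : 0 ≤ z - μ := by rw [hz]; nlinarith
    have h11 := mul_le_mul_of_nonneg_right h8 h10
    have h12 : t * ((ρ - α) * (μ₁ - μ)) = (ρ - α) * (μ₁ - z) := by rw [hz]; ring
    rw [h12]
    nlinarith
  constructor
  · rcases le_total μ μ₁ with h3 | h3
    · exact hleft μ h3
    · refine le_trans ?_ (hright μ h3)
      nlinarith
  · rcases le_total μ μ₁ with h3 | h3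
    · refine le_trans ?_ (hleft μ h3)
      nlinarith
    · exact hright μ h3

lemma mf_bound {p : ℝ → ℝ} {b κ : ℝ} (hb : 0 < b) (hκ : 4 * b ≤ κ)
    (hQ : ∀ s, 0 ≤ p s ∧ p s ≤ 1 + s ^ 2 / (2 * κ)) (μ m : ℝ) :
    p (μ + b * m) - b * m ^ 2 / 2 ≤ 1 + μ ^ 2 / κ - b * m ^ 2 / 4 := by
  have hκ0 : 0 < κ := by linarith
  have h3 := (hQ (μ + b * m)).2
  have h4 : (μ + b * m) ^ 2 / (2 * κ) ≤ μ ^ 2 / κ + b * m ^ 2 / 4 := by
    rw [div_le_iff₀ (by positivity)]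
    have h5 : (μ ^ 2 / κ + b * m ^ 2 / 4) * (2 * κ) = 2 * μ ^ 2 + b * m ^ 2 * κ / 2 := by
      field_simp; ring
    rw [h5]
    have h6 : b * m ^ 2 * (4 * b) ≤ b * m ^ 2 * κ :=
      mul_le_mul_of_nonneg_left hκ (by positivity)
    nlinarith [sq_nonneg (μ - b * m)]
  linarith

lemma mf_exists {p : ℝ → ℝ} (hpc : Continuous p) {b κ : ℝ} (hb : 0 < b) (hκ : 4 * b ≤ κ)
    (hQ : ∀ s, 0 ≤ p s ∧ p s ≤ 1 + s ^ 2 / (2 * κ)) (μ : ℝ) :
    ∃ m, ∀ m', p (μ + b * m') - b * m' ^ 2 / 2 ≤ p (μ + b * m) - b * m ^ 2 / 2 := by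
  have hκ0 : 0 < κ := by linarith
  obtain ⟨m, _, hm⟩ := exists_max (f := fun m => p (μ + b * m) - b * m ^ 2 / 2) (by fun_prop)
    (T := 1 + 4 * (1 + μ ^ 2 / κ) / b) (by positivity) (fun x hx => by
      have h3 := mf_bound hb hκ hQ μ x
      have h4 := (hQ (μ + b * 0)).1
      have h5 : 0 ≤ 4 * (1 + μ ^ 2 / κ) / b := by positivity
      have h6 : |x| ≤ x ^ 2 := by rw [← sq_abs]; nlinarith
      have h7 : 4 * (1 + μ ^ 2 / κ) / b ≤ x ^ 2 := by linarith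
      rw [div_le_iff₀ hb] at h7
      nlinarith)
  exact ⟨m, hm⟩

lemma mf_convex {p mm : ℝ → ℝ} (hp : ConvexOn ℝ univ p) {b : ℝ}
    (hmm : ∀ μ m', p (μ + b * m') - b * m' ^ 2 / 2 ≤ p (μ + b * mm μ) - b * mm μ ^ 2 / 2) :
    ConvexOn ℝ univ (fun μ => p (μ + b * mm μ) - b * mm μ ^ 2 / 2) := by
  refine ⟨convex_univ, fun x _ y _ u v hu hv huv => ?_⟩
  simp only [smul_eq_mul]
  obtain ⟨m, hm⟩ : ∃ m, m = mm (u * x + v * y) := ⟨_, rfl⟩
  rw [← hm]
  have h3 := hp.2 (mem_univ (x + b * m)) (mem_univ (y + b * m)) hu hv huv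
  simp only [smul_eq_mul] at h3
  have h4 : u * (x + b * m) + v * (y + b * m) = u * x + v * y + b * m := by
    have : u * (b * m) + v * (b * m) = b * m := by rw [← add_mul, huv, one_mul]
    linarith
  rw [h4] at h3
  have h5 := mul_le_mul_of_nonneg_left (hmm x m) hu
  have h6 := mul_le_mul_of_nonneg_left (hmm y m) hv
  have h7 : u * (b * m ^ 2 / 2) + v * (b * m ^ 2 / 2) = b * m ^ 2 / 2 := by
    rw [← add_mul, huv, one_mul]
  linarith

theorem kink_step {p : ℝ → ℝ} (hp : ConvexOn ℝ univ p) {b κ ρ a μ₀ α β η δ : ℝ} (hb : 0 < b)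
    (hκ : 4 * b ≤ κ) (hρ : 0 < ρ) (ha : 0 ≤ a) (hQ : ∀ s, 0 ≤ p s ∧ p s ≤ 1 + s ^ 2 / (2 * κ))
    (hlow : ∀ s, 2 * ρ * (s - a) ≤ p s) (hk : Kink p μ₀ α β η) (hδ : 0 < δ)
    (hη : 2 * η ≤ b * δ ^ 2) (h1 : α + δ < ρ) (h2 : ρ < β - δ) :
    ∃ μ₁ M₁ : ℝ, |μ₁| ≤ 1 / ρ + 2 * a ∧ (∀ m, p (μ₁ + b * m) - b * m ^ 2 / 2 ≤ M₁) ∧
      ∀ μ, ∃ m, M₁ + (α + δ) * (μ - μ₁) ≤ p (μ + b * m) - b * m ^ 2 / 2 ∧
        M₁ + (β - δ) * (μ - μ₁) ≤ p (μ + b * m) - b * m ^ 2 / 2 := by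
  choose mm hmm using mf_exists (cont_of_convex hp) hb hκ hQ
  have hMconv := mf_convex hp hmm
  obtain ⟨M, hM⟩ : ∃ M : ℝ → ℝ, M = fun μ => p (μ + b * mm μ) - b * mm μ ^ 2 / 2 := ⟨_, rfl⟩
  rw [← hM] at hMconv
  have hMe : ∀ μ, M μ = p (μ + b * mm μ) - b * mm μ ^ 2 / 2 := fun μ => by rw [hM]
  have hMge : ∀ μ m, p (μ + b * m) - b * m ^ 2 / 2 ≤ M μ := fun μ m => by
    rw [hMe]; exact hmm μ m
  have hc : 0 ≤ 1 / (2 * b) := by positivity
  have hsubM : ∀ μ μ', M μ + mm μ * (μ' - μ) ≤ M μ' := by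
    intro μ
    apply sub_of_quad_lower hMconv hc
    intro y
    have h3 := hMge y (mm μ - (y - μ) / b)
    have h4 : y + b * (mm μ - (y - μ) / b) = μ + b * mm μ := by field_simp; ring
    have h5 : b * (mm μ - (y - μ) / b) ^ 2 / 2
        = b * mm μ ^ 2 / 2 - mm μ * (y - μ) + 1 / (2 * b) * (y - μ) ^ 2 := by field_simp; ring
    rw [h4, h5] at h3
    rw [hMe μ]
    linarith
  have havoid : ∀ μ, mm μ ≤ α + δ ∨ β - δ ≤ mm μ := by
    intro μ
    refine avoid (s := μ + b * mm μ) hp hb hk hδ hη (fun y => ?_)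
    have h3 := hmm μ ((y - μ) / b)
    have h4 : μ + b * ((y - μ) / b) = y := by field_simp; ring
    have h5 : b * ((y - μ) / b) ^ 2 / 2 = b * mm μ ^ 2 / 2 + mm μ * (y - (μ + b * mm μ))
        + 1 / (2 * b) * (y - (μ + b * mm μ)) ^ 2 := by field_simp; ring
    rw [h4, h5] at h3
    linarith
  have hMp : ∀ μ, p μ ≤ M μ := fun μ => by simpa using hMge μ 0
  have hM0 : M 0 ≤ 1 := by
    have h3 := mf_bound hb hκ hQ 0 (mm 0)
    have h4 : 0 ≤ b * mm 0 ^ 2 / 4 := by positivity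
    have h5 : (0 : ℝ) ^ 2 / κ = 0 := by simp
    rw [hMe]
    linarith
  have hMc := cont_of_convex hMconv
  obtain ⟨μ₁, hμ₁, hmin⟩ := exists_max (f := fun μ => ρ * μ - M μ) (by fun_prop)
    (T := 1 / ρ + 2 * a) (by positivity) (fun x hx => by
      have h3 := hMp x
      have h4 := (hQ x).1
      have h5 := hlow x
      have h6 : ρ * (1 / ρ + 2 * a) = 1 + 2 * ρ * a := by field_simp
      have h7 : 0 ≤ ρ * a := by positivity
      rcases lt_abs.1 hx with h8 | h8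
      · have := mul_lt_mul_of_pos_left h8 hρ
        linarith
      · have := mul_lt_mul_of_pos_left h8 hρ
        linarith)
  refine ⟨μ₁, M μ₁, hμ₁, hMge μ₁, fun μ => ⟨mm μ, ?_⟩⟩
  rw [← hMe]
  exact kink_of_avoid h1 h2 hsubM havoid hmin μ

theorem kink_limit {p : ℝ → ℝ} (hp : ConvexOn ℝ univ p) {α β T : ℝ} {μ σ e : ℕ → ℝ}
    (hμ : ∀ n, |μ n| ≤ T) (hσ : Tendsto σ atTop (𝓝 0)) (he : Tendsto e atTop (𝓝 0))
    (h : ∀ n s, p (μ n - σ n) - e n + α * (s - μ n) ≤ p s ∧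
      p (μ n - σ n) - e n + β * (s - μ n) ≤ p s) : ∃ x, Kink p x α β 0 := by
  have hc := cont_of_convex hp
  obtain ⟨x, _, φ, hφ, hlim⟩ := (isCompact_Icc (a := -T) (b := T)).tendsto_subseq
    (x := μ) (fun n => abs_le.1 (hμ n))
  have h1 : Tendsto (fun n => p (μ (φ n) - σ (φ n)) - e (φ n)) atTop (𝓝 (p (x - 0) - 0)) :=
    ((hc.tendsto _).comp (hlim.sub (hσ.comp hφ.tendsto_atTop))).sub (he.comp hφ.tendsto_atTop)
  rw [sub_zero x] at h1
  refine ⟨x, fun s => ⟨?_, ?_⟩⟩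
  · exact le_of_tendsto' (h1.add ((hlim.const_sub s).const_mul α)) (fun n => (h (φ n) s).1)
  · exact le_of_tendsto' (h1.add ((hlim.const_sub s).const_mul β)) (fun n => (h (φ n) s).2)

lemma not_diff_of_kink {p : ℝ → ℝ} {x α β : ℝ} (hk : Kink p x α β 0) (hab : α ≠ β) :
    ¬ DifferentiableAt ℝ p x := by
  intro hd
  have key : ∀ γ, (∀ s, p x - 0 + γ * (s - x) ≤ p s) → deriv p x = γ := by
    intro γ hγ
    have h1 : IsLocalMin (fun s => p s - γ * s) x :=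
      Eventually.of_forall (fun s => by have := hγ s; simp only; linarith)
    have h2 : HasDerivAt (fun s => p s - γ * s) (deriv p x - γ) x := by
      simpa using hd.hasDerivAt.fun_sub ((hasDerivAt_id x).const_mul γ)
    have := h1.hasDerivAt_eq_zero h2
    linarith
  exact hab ((key α (fun s => (hk s).1)).symm.trans (key β (fun s => (hk s).2)))

end Vale.Agent.P171
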