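import Vale.Agent.P171.Pot
import Vale.Agent.P171.Kink

/-! The multi-scale induction and the phase transition. -/

namespace Vale.Agent.P171

open MeasureTheory Set Filter Topology
open scoped ENNReal

/-- bound for the location of the kinks -/
noncomputable def ms : ℝ := 250 + 4 * AA
/-- density cutoff -/
noncomputable def rm : ℝ := ms + 1
/-- bound for the pressure -/
noncomputable def QQ : ℝ := 1 + (ms + 54 * bs * rm) ^ 2 / (2 * kk)
/-- error constant -/
noncomputable def CC : ℝ := 112 * bs * rm ^ 2 + 130 * QQ + rm + 5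

lemma ms_pos : 0 < ms := by unfold ms; have := AA_pos; positivity
lemma rm_ge : 1 ≤ rm := by unfold rm; linarith [ms_pos]
lemma QQ_pos : 0 < QQ := by unfold QQ; have := kk_pos; positivity
lemma CC_pos : 0 < CC := by
  unfold CC; have := bs_ge; have := rm_ge; have := QQ_pos; positivity

lemma upper_at {T : ℕ} (hT : 2 ≤ T) (n : ℕ) {φ' : ℝ → ℝ} (hg' : Good kk φ') {c μ M : ℝ}
    (hc0 : 0 ≤ c) (hc1 : c ≤ 54 * bs)
    (hφ' : ∀ (s : ℝ) (N : ℕ) (x : Fin N → E3), pairSum core x - pairSum (Psi T n) x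
      - c / (2 * (vv T n : ℝ) ^ 18) ^ 3 * SS (2 * (vv T n : ℝ) ^ 18) s x ≤ pairSum φ' x)
    (hμ1 : μ ≤ ms)
    (hμ2 : ∀ m, 0 ≤ m → m ≤ rm → |μ + c * m| ≤ ms + 54 * bs * rm)
    (hM : ∀ m, 0 ≤ m → m ≤ rm → PP (phi T n) (μ + c * m) - c * m ^ 2 / 2 ≤ M) :
    PP φ' μ ≤ M + (130 * QQ + rm + 5) / (vv T n : ℝ) ^ 6 := by
  have hv := two_le_vv hT n
  have hv1 : (1 : ℝ) ≤ vv T n := by linarith
  have h6 : (64 : ℝ) ≤ (vv T n : ℝ) ^ 6 := by
    calc (64 : ℝ) = 2 ^ 6 := by norm_num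
      _ ≤ _ := pow_le_pow_left₀ (by norm_num) hv 6
  have h18 : (vv T n : ℝ) ^ 6 ≤ 2 * (vv T n : ℝ) ^ 18 := by
    have : (vv T n : ℝ) ^ 6 ≤ (vv T n : ℝ) ^ 18 := pow_le_pow_right₀ hv1 (by norm_num)
    linarith
  have hj : 6 ≤ vv T n ^ 6 := by
    have : (6 : ℝ) ≤ ((vv T n ^ 6 : ℕ) : ℝ) := by push_cast; linarith
    exact_mod_cast this
  have hk := kk_pos
  have hb := bs_ge
  have hr := rm_ge
  have hQ := QQ_pos
  have h1 := PP_upper (h := 2 * (vv T n : ℝ) ^ 18) (j := vv T n ^ 6) (c := c) (μ := μ) (ρ := rm)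
    (Q := QQ) (M := M) (good_phi hT n) hg' (by linarith) hj core_cont.measurable
    (Psi_cont hT n).measurable core_nonneg (Psi_nonneg hT n)
    (fun r hr => Psi_supp hT n (by
      refine lt_of_eq_of_lt ?_ hr
      push_cast; field_simp))
    (fun _ => rfl) hφ' (stab (Psi_dom_one hT n) hc1 (by linarith)) hr
    (by unfold kk rm; have := ms_pos; nlinarith)
    (fun m h0 h1 => by
      have h2 := sq_le_sq' (abs_le.1 (hμ2 m h0 h1)).1 (abs_le.1 (hμ2 m h0 h1)).2
      unfold QQ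
      have := div_le_div_of_nonneg_right h2 (show 0 ≤ 2 * kk by positivity)
      linarith) hM
  push_cast at h1
  have h2 : (124 * QQ + rm + 5) / (2 * (vv T n : ℝ) ^ 18) ≤ (124 * QQ + rm + 5) / (vv T n : ℝ) ^ 6 :=
    div_le_div_of_nonneg_left (by positivity) (by positivity) h18
  have h3 : (130 * QQ + rm + 5) / (vv T n : ℝ) ^ 6
      = (124 * QQ + rm + 5) / (vv T n : ℝ) ^ 6 + 6 * QQ / (vv T n : ℝ) ^ 6 := by ring
  linarith

lemma phi_low {T : ℕ} (hT : 2 ≤ T) (n : ℕ) (s : ℝ) :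
    2 * (1 / 250) * (s - 2 * AA) ≤ PP (phi T n) s := by
  have h1 := (good_phi hT n).PP_ge s
  have h2 : phi T n 0 ≤ 4 * AA := by
    unfold phi; rw [core_at_zero]; linarith [Psi_nonneg hT n 0]
  linarith

lemma step {T : ℕ} (hT : 2 ≤ T) (n : ℕ) {μ₀ α β η δ : ℝ} (hk : Kink (PP (phi T n)) μ₀ α β η)
    (hδ : 0 < δ) (hη : 2 * η ≤ bb T n * δ ^ 2) (h1 : α + δ < 1 / 250) (h2 : 1 / 250 < β - δ) :
    ∃ μ₁, |μ₁| ≤ ms ∧
      Kink (PP (phi T (n + 1))) μ₁ (α + δ) (β - δ) (CC / (vv T n : ℝ) ^ 6) := by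
  have hg := good_phi hT n
  have hg' := good_phi hT (n + 1)
  have hb0 := bb_pos hT n
  have hb1 := bb_le_bs hT n
  have hb := bs_ge
  have hr := rm_ge
  have hv := two_le_vv hT n
  have hR := one_le_RR hT n
  obtain ⟨μ₁, M₁, hμ₁, hM₁, hlow⟩ := kink_step hg.convex hb0 (κ := kk) (by unfold kk; linarith)
    (ρ := 1 / 250) (a := 2 * AA) (by norm_num) (by linarith [AA_pos])
    (fun s => ⟨hg.PP_nonneg s, hg.PP_le s⟩) (phi_low hT n) hk hδ hη h1 h2
  have hμ : |μ₁| ≤ ms := by unfold ms; norm_num at hμ₁; linarith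
  obtain ⟨y, hy⟩ : ∃ y : ℝ, y = 4 / (vv T n : ℝ) ^ 6 := ⟨_, rfl⟩
  have h6 : (64 : ℝ) ≤ (vv T n : ℝ) ^ 6 := by
    calc (64 : ℝ) = 2 ^ 6 := by norm_num
      _ ≤ _ := pow_le_pow_left₀ (by norm_num) hv 6
  have hy0 : 0 ≤ y := by rw [hy]; positivity
  have hy1 : y ≤ 1 := by rw [hy, div_le_one (by positivity)]; linarith
  have hye : 2 * (2 * (vv T n : ℝ) ^ 18) / RR T n = y := by
    rw [hy, RR]; field_simp; norm_num
  obtain ⟨t, ht⟩ : ∃ t : ℝ, t = (1 + y) ^ 3 := ⟨_, rfl⟩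
  have ht1 : 1 ≤ t := by rw [ht]; exact one_le_pow₀ (by linarith)
  have ht2 : t ≤ 1 + 7 * y := by rw [ht]; nlinarith [mul_nonneg hy0 hy0]
  have ht3 : t ≤ 8 := by linarith
  have hc1 : bb T n * t ≤ 54 * bs := by nlinarith
  have hup := upper_at hT n hg' (c := bb T n * t) (μ := μ₁)
    (M := M₁ + 112 * bs * rm ^ 2 / (vv T n : ℝ) ^ 6) (by positivity) hc1
    (fun s N x => by
      have h3 := psi_upper (R := RR T n) (h := 2 * (vv T n : ℝ) ^ 18) (by linarith)
        (by positivity) s x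
      rw [hye, ← ht] at h3
      have h4 : pairSum (phi T (n + 1)) x = pairSum core x - pairSum (Psi T n) x
          - bb T n * pairSum (psi (RR T n)) x := by
        rw [← pairSum_mul, ← pairSum_sub, ← pairSum_sub]
        congr 1; funext r; unfold phi; rw [Psi_succ]; ring
      have h5 := mul_le_mul_of_nonneg_left h3 hb0.le
      rw [h4]
      unfold pairSum at h5 ⊢
      have h7 : bb T n * t / (2 * (vv T n : ℝ) ^ 18) ^ 3 * SS (2 * (vv T n : ℝ) ^ 18) s x
          = bb T n * (t / (2 * (vv T n : ℝ) ^ 18) ^ 3 * SS (2 * (vv T n : ℝ) ^ 18) s x) := by ring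
      linarith)
    (le_trans (le_abs_self _) hμ)
    (fun m h0 h3 => by
      have h4 : 0 ≤ bb T n * t * m := by positivity
      have h5 : bb T n * t * m ≤ 54 * bs * rm := mul_le_mul hc1 h3 h0 (by positivity)
      rw [abs_le] at hμ ⊢
      constructor <;> nlinarith [hμ.1, hμ.2])
    (fun m h0 h3 => by
      have h4 := hM₁ (t * m)
      rw [← mul_assoc] at h4
      have h5 : m ^ 2 ≤ rm ^ 2 := pow_le_pow_left₀ h0 h3 2
      have h7 : 112 * bs * rm ^ 2 / (vv T n : ℝ) ^ 6 = bs * (8 * (7 * y)) * rm ^ 2 / 2 := by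
        rw [hy]; ring
      have h8 : t * (t - 1) ≤ 8 * (7 * y) := mul_le_mul ht3 (by linarith) (by linarith) (by norm_num)
      have h9 : bb T n * (t * (t - 1)) * m ^ 2 ≤ bs * (8 * (7 * y)) * rm ^ 2 :=
        mul_le_mul (mul_le_mul hb1 h8 (mul_nonneg (by linarith) (by linarith)) (by linarith))
          h5 (by positivity) (by positivity)
      rw [h7]
      nlinarith)
  have he : 112 * bs * rm ^ 2 / (vv T n : ℝ) ^ 6 + (130 * QQ + rm + 5) / (vv T n : ℝ) ^ 6
      = CC / (vv T n : ℝ) ^ 6 := by unfold CC; ring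
  refine ⟨μ₁, hμ, fun s => ?_⟩
  obtain ⟨m, hm1, hm2⟩ := hlow s
  have h3 := PP_lower hg hg' hb0.le (R := RR T n) (by linarith)
    (fun r => by unfold phi; rw [Psi_succ]; linarith) s m
  constructor <;> linarith

lemma all_kinks {T : ℕ} (hT : 2 ≤ T) (hTC : 8000000 * CC ≤ T) (n : ℕ) :
    ∃ μ η, |μ| ≤ ms ∧ Kink (PP (phi T n)) μ (1 / 500 * (1 - (1 / 2) ^ n))
      (1 / 125 - 1 / 500 * (1 - (1 / 2) ^ n)) η ∧
      2 * η ≤ bb T n * (1 / 1000 * (1 / 2) ^ n) ^ 2 := by
  induction n with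
  | zero =>
    have hg := good_phi hT 0
    have h0 : ∀ r, phi T 0 r = core r := fun r => by simp [phi, Psi]
    have h1 := hg.PP_le_exp (fun r => by rw [h0]; exact core_nonneg r)
    rw [h0, core_at_zero, show 4 * AA / 2 = 2 * AA by ring] at h1
    refine ⟨2 * AA, 1, ?_, fun s => ⟨?_, ?_⟩, ?_⟩
    · rw [abs_of_pos (by linarith [AA_pos])]; unfold ms; linarith [AA_pos]
    · have := hg.PP_nonneg s
      norm_num; linarith
    · have := phi_low hT 0 s
      norm_num; linarith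
    · simp only [bb, if_true, bs]; norm_num
  | succ n ih =>
    obtain ⟨μ, η, _, hk, hη⟩ := ih
    have hp0 : (0 : ℝ) < (1 / 2) ^ n := by positivity
    have hp1 : ((1 : ℝ) / 2) ^ n ≤ 1 := pow_le_one₀ (by norm_num) (by norm_num)
    obtain ⟨μ₁, hμ₁, hk₁⟩ := step hT n hk (by positivity) hη (by linarith) (by linarith)
    refine ⟨μ₁, CC / (vv T n : ℝ) ^ 6, hμ₁, ?_, ?_⟩
    · convert hk₁ using 1 <;> rw [pow_succ] <;> ring
    · have hv := two_le_vv hT n
      have hv2 := vv_ge' hT n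
      have hT' : (2 : ℝ) ≤ T := by exact_mod_cast hT
      have hC := CC_pos
      have h1 : bb T (n + 1) = 1 / (vv T n : ℝ) ^ 4 := by
        unfold bb; rw [if_neg (by omega), vv_succ]; push_cast; ring
      have h2 : (2 : ℝ) ^ n * (1 / 2) ^ n = 1 := by rw [← mul_pow]; norm_num
      have h3 : (T : ℝ) ≤ vv T n * (1 / 2) ^ n := by
        have := mul_le_mul_of_nonneg_right hv2 hp0.le
        rwa [mul_assoc, h2, mul_one] at this
      have h4 : 8000000 * CC ≤ (vv T n * (1 / 2) ^ n) ^ 2 := by nlinarith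
      have h5 : 1 / (vv T n : ℝ) ^ 4 * (1 / 1000 * (1 / 2) ^ (n + 1)) ^ 2
          = (vv T n * (1 / 2) ^ n) ^ 2 / 4000000 / (vv T n : ℝ) ^ 6 := by
        rw [pow_succ (1 / 2 : ℝ) n]; field_simp; ring
      rw [h1, h5, ← mul_div_assoc]
      exact div_le_div_of_nonneg_right (by linarith) (by positivity)

theorem kink_inf {T : ℕ} (hT : 2 ≤ T) (hTC : 8000000 * CC ≤ T) :
    ∃ x, Kink (PP (phiInf T)) x (1 / 500) (3 / 500) 0 := by
  choose μ η hμ hk hη using all_kinks hT hTC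
  have hg := good_phiInf hT
  have hb := bs_ge
  have hr := rm_ge
  have hQ := QQ_pos
  have hlim : Tendsto (fun n : ℕ => ((1 : ℝ) / 2) ^ n) atTop (𝓝 0) :=
    tendsto_pow_atTop_nhds_zero_of_lt_one (by norm_num) (by norm_num)
  refine kink_limit hg.convex hμ (σ := fun n => 54 * bs * (1 / 2) ^ n * rm)
    (e := fun n => (130 * QQ + rm + 5 + bs) * (1 / 2) ^ n)
    (by simpa using (hlim.const_mul (54 * bs)).mul_const rm)
    (by simpa using hlim.const_mul (130 * QQ + rm + 5 + bs)) (fun n s => ?_)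
  have hp0 : (0 : ℝ) < (1 / 2) ^ n := by positivity
  have hp1 : ((1 : ℝ) / 2) ^ n ≤ 1 := pow_le_one₀ (by norm_num) (by norm_num)
  have hv := two_le_vv hT n
  have hv1 : (1 : ℝ) ≤ vv T n := by linarith
  have hc1 : 54 * bs * (1 / 2) ^ n ≤ 54 * bs := by nlinarith
  have hc0 : 0 ≤ 54 * bs * (1 / 2) ^ n := by positivity
  have hμn := abs_le.1 (hμ n)
  have hup := upper_at hT n hg (c := 54 * bs * (1 / 2) ^ n)
    (μ := μ n - 54 * bs * (1 / 2) ^ n * rm) (M := PP (phi T n) (μ n)) hc0 hc1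
    (fun s N x => by
      have h3 := tail_dom hT n (h := 2 * (vv T n : ℝ) ^ 18) (by positivity) (by
        unfold RR
        have h4 : (vv T n : ℝ) ^ 24 = (vv T n : ℝ) ^ 6 * (vv T n : ℝ) ^ 18 := by ring
        have h5 : (vv T n : ℝ) ^ 1 ≤ (vv T n : ℝ) ^ 6 := pow_le_pow_right₀ hv1 (by norm_num)
        rw [h4]
        exact mul_le_mul_of_nonneg_right (by linarith) (by positivity)) s x
      have h4 : pairSum (phiInf T) x = pairSum core x - pairSum (Psi T n) x
          - pairSum (tail T n) x := by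
        rw [← pairSum_sub, ← pairSum_sub]
        congr 1; funext r; unfold phiInf; rw [← Psi_add_tail hT n]; ring
      linarith)
    (by nlinarith [hμn.2])
    (fun m h0 h3 => by
      have h4 := mul_le_mul_of_nonneg_left h3 hc0
      have h5 := mul_nonneg hc0 h0
      have h6 := mul_le_mul_of_nonneg_right hc1 (show 0 ≤ rm by linarith)
      rw [abs_le]
      constructor <;> nlinarith [hμn.1, hμn.2])
    (fun m h0 h3 => by
      have h4 := mul_le_mul_of_nonneg_left h3 hc0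
      have h5 := PP_mono (good_phi hT n) (good_phi hT n) (fun _ => le_rfl)
        (show μ n - 54 * bs * (1 / 2) ^ n * rm + 54 * bs * (1 / 2) ^ n * m ≤ μ n by linarith)
      have h6 : 0 ≤ 54 * bs * (1 / 2) ^ n * m ^ 2 / 2 := by positivity
      linarith)
  have h1 := PP_mono (good_phi hT n) hg (fun r => by
    unfold phi phiInf; linarith [Psi_add_tail hT n r, tail_nonneg hT n r]) (le_refl s)
  have h2 : (130 * QQ + rm + 5) / (vv T n : ℝ) ^ 6 ≤ (130 * QQ + rm + 5) * (1 / 2) ^ n := by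
    rw [one_div_pow, mul_one_div]
    refine div_le_div_of_nonneg_left (by positivity) (by positivity) ?_
    have h5 : (vv T n : ℝ) ^ 1 ≤ (vv T n : ℝ) ^ 6 := pow_le_pow_right₀ hv1 (by norm_num)
    have h6 := pow_le_vv hT n
    have h7 : (0 : ℝ) < 2 ^ n := by positivity
    linarith
  have h3 : η n ≤ bs * (1 / 2) ^ n := by
    have h4 := hη n
    have h5 := bb_le hT n
    have h6 : (1 / 1000 * (1 / 2 : ℝ) ^ n) ^ 2 ≤ 1 := pow_le_one₀ (by positivity) (by linarith)
    have h7 := mul_le_mul h5 h6 (by positivity) (by positivity)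
    have h8 : 0 ≤ bs * (1 / 2) ^ n := by positivity
    linarith
  obtain ⟨h4, h5⟩ := hk n s
  rcases le_total s (μ n) with h6 | h6
  · constructor <;> nlinarith
  · constructor <;> nlinarith

lemma pairSum_eq (φ : ℝ → ℝ) {N : ℕ} (x : Fin N → E3) :
    pairSum φ x = N * φ 0 + 2 * energy φ x := by
  unfold pairSum energy
  have h1 : ∀ i j : Fin N, φ (dist (x i) (x j)) = (if i = j then φ 0 else 0)
      + (if i < j then φ ‖x i - x j‖ else 0) + (if j < i then φ ‖x j - x i‖ else 0) := by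
    intro i j
    rcases lt_trichotomy i j with h | h | h
    · rw [if_neg h.ne, if_pos h, if_neg h.not_gt, dist_eq_norm]; ring
    · subst h; simp
    · rw [if_neg h.ne', if_neg h.not_gt, if_pos h, dist_comm, dist_eq_norm]; ring
  simp only [h1, Finset.sum_add_distrib, Finset.sum_filter]
  rw [Finset.sum_comm (f := fun i j : Fin N => if j < i then φ ‖x j - x i‖ else 0)]
  simp
  ring

lemma term_eq {φ : ℝ → ℝ} (hm : Measurable φ) {z : ℝ} (hz : 0 < z) (L : ℝ) (N : ℕ) :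
    z ^ N * canonicalZ φ 1 L N =
      (II (cube L) (rad φ) (Real.log z + φ 0 / 2) (Fin N) * ((N.factorial : ℝ≥0∞))⁻¹).toReal := by
  have hS : MeasurableSet (Set.pi univ (fun _ : Fin N => cube L)) :=
    MeasurableSet.univ_pi (fun _ => meas_cube L)
  have h1 : ∀ x : Fin N → E3, Real.exp (ham (rad φ) (Real.log z + φ 0 / 2) x)
      = z ^ N * Real.exp (-1 * energy φ x) := by
    intro x
    rw [ham_rad, pairSum_eq, ← Real.exp_log (pow_pos hz N), ← Real.exp_add, Real.log_pow]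
    congr 1; ring
  have h2 := integral_eq_lintegral_of_nonneg_ae
    (μ := volume.restrict (Set.pi univ (fun _ : Fin N => cube L)))
    (f := fun x : Fin N → E3 => Real.exp (ham (rad φ) (Real.log z + φ 0 / 2) x))
    (Eventually.of_forall (fun _ => (Real.exp_pos _).le))
    (Real.measurable_exp.comp (meas_ham (meas_rad hm) _ _)).aestronglyMeasurable
  unfold II wt canonicalZ
  rw [lintegral_indicator hS, ENNReal.toReal_mul, ← h2, ENNReal.toReal_inv, ENNReal.toReal_natCast]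
  simp only [h1]
  rw [integral_const_mul]
  ring

lemma grandZ_eq {φ : ℝ → ℝ} (hm : Measurable φ) {z L : ℝ} (hz : 0 < z)
    (hfin : ZZ (cube L) (rad φ) (Real.log z + φ 0 / 2) ≠ ⊤) :
    Summable (fun N => z ^ N * canonicalZ φ 1 L N) ∧
      Real.log (grandZ φ 1 z L) = GG φ (Real.log z + φ 0 / 2) L := by
  unfold grandZ GG
  simp only [term_eq hm hz]
  refine ⟨ENNReal.summable_toReal hfin, ?_⟩
  rw [← ENNReal.tsum_toReal_eq (ENNReal.ne_top_of_tsum_ne_top hfin)]
  rfl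

lemma cube_mono {L L' : ℝ} (h : L ≤ L') : cube L ⊆ cube L' :=
  fun _ hx a => ⟨(hx a).1, le_trans (hx a).2 h⟩

lemma Good.scale {κ β : ℝ} {φ : ℝ → ℝ} (h : Good κ φ) (hβ : 0 < β) :
    Good (β * κ) (fun r => β * φ r) where
  pos := mul_pos hβ h.pos
  meas := h.meas.const_mul β
  neg := fun r hr => mul_nonpos_of_nonneg_of_nonpos hβ.le (h.neg r hr)
  sst := fun L hL N x hx => by
    rw [pairSum_mul]
    have := mul_le_mul_of_nonneg_left (h.sst L hL N x hx) hβ.le
    calc β * κ * (N : ℝ) ^ 2 / L ^ 3 = β * (κ * (N : ℝ) ^ 2 / L ^ 3) := by ring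
      _ ≤ _ := this

lemma canonicalZ_scale (φ : ℝ → ℝ) (β L : ℝ) (N : ℕ) :
    canonicalZ φ β L N = canonicalZ (fun r => β * φ r) 1 L N := by
  unfold canonicalZ energy
  simp only [← Finset.mul_sum, neg_mul, one_mul]

lemma Good.limit {κ : ℝ} {φ : ℝ → ℝ} (hg : Good κ φ) {z : ℝ} (hz : 0 < z) :
    (∀ L, Summable (fun N => z ^ N * canonicalZ φ 1 L N)) ∧
      Tendsto (fun L => Real.log (grandZ φ 1 z L) / L ^ 3) atTop
        (𝓝 (PP φ (Real.log z + φ 0 / 2))) := by
  refine ⟨fun L => ?_, ?_⟩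
  · refine (grandZ_eq hg.meas hz (ne_top_of_le_ne_top
      (hg.fin (le_max_right L 1) (Real.log z + φ 0 / 2)) ?_)).1
    exact ZZ_mono (meas_cube _) (meas_rad hg.meas) (cube_mono (le_max_left L 1))
      (fun _ _ _ => le_rfl)
  · refine (hg.tendsto (Real.log z + φ 0 / 2)).congr' ?_
    filter_upwards [eventually_ge_atTop 1] with L hL
    rw [(grandZ_eq hg.meas hz (hg.fin hL _)).2]

theorem main : ∃ φ : ℝ → ℝ, Continuous φ ∧ (∃ M : ℝ, ∀ r, 0 ≤ r → |φ r| ≤ M) ∧
    (∃ C : ℝ, ∀ r, 4 ≤ r → |φ r| ≤ C * r ^ (-3 - 1 / 24 : ℝ)) ∧ Stable φ ∧ Tempered φ ∧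
    ∃ P : ℝ → ℝ → ℝ,
      (∀ β z, 0 < β → 0 < z → (∀ L, Summable (fun N => z ^ N * canonicalZ φ β L N)) ∧
        Tendsto (fun L => Real.log (grandZ φ β z L) / L ^ 3) atTop (𝓝 (P β z))) ∧
      ∃ β z, 0 < β ∧ 0 < z ∧ ¬ DifferentiableAt ℝ (P β) z := by
  obtain ⟨T0, hT0⟩ := exists_nat_ge (8000000 * CC)
  set T := T0 + 2 with hTdef
  have hT : 2 ≤ T := by omega
  have hTC : 8000000 * CC ≤ T := by rw [hTdef]; push_cast; linarith
  have hg := good_phiInf hT
  obtain ⟨C, hC, hdec⟩ := tail_decay hT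
  have hdec' : ∀ r, 4 ≤ r → |phiInf T r| ≤ C * r ^ (-3 - 1 / 24 : ℝ) := by
    intro r hr
    unfold phiInf
    rw [core_zero hr, zero_sub, abs_neg, abs_of_nonneg (tail_nonneg hT 0 r)]
    exact hdec r (by linarith)
  refine ⟨phiInf T, core_cont.sub (tail_cont hT), ⟨4 * AA + bs / om * 2, fun r h => ?_⟩,
    ⟨C, hdec'⟩, ⟨phiInf T 0 / 2, fun N x _ => ?_⟩,
    ⟨C, 1 / 24, 4, hC, by norm_num, by norm_num, fun r hr => le_trans (le_abs_self _) (hdec' r hr)⟩,
    fun β z => PP (fun r => β * phiInf T r) (Real.log z + β * phiInf T 0 / 2),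
    fun β z hβ hz => ?_, ?_⟩
  · have h1 := tail_bound hT r
    have h2 := tail_nonneg hT 0 r
    have h3 := core_nonneg r
    have h4 : core r ≤ 4 * AA := by
      unfold core
      rw [mul_comm]
      exact mul_le_mul_of_nonneg_right (max_le (by norm_num) (by linarith)) AA_pos.le
    unfold phiInf
    rw [abs_le]; constructor <;> linarith [AA_pos]
  · have h1 := pairSum_eq (phiInf T) x
    have h2 : pairSum (phiInf T) x = pairSum core x - pairSum (tail T 0) x := pairSum_sub _ _ x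
    have h3 := core_lower x
    have h4 := tail_dom_one hT N x
    have h5 := SS_nonneg 1 0 x
    have hb := bs_ge
    unfold AA at h3
    nlinarith
  · have h1 := (hg.scale hβ).limit hz
    unfold grandZ at h1 ⊢
    simp only [← canonicalZ_scale] at h1
    exact h1
  · obtain ⟨x, hx⟩ := kink_inf hT hTC
    refine ⟨1, Real.exp (x - phiInf T 0 / 2), one_pos, Real.exp_pos _, fun hd => ?_⟩
    apply not_diff_of_kink hx (by norm_num)
    have h1 : DifferentiableAt ℝ (fun μ => Real.exp (μ - phiInf T 0 / 2)) x := by fun_prop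
    have h2 := DifferentiableAt.comp x
      (g := fun z => PP (fun r => 1 * phiInf T r) (Real.log z + 1 * phiInf T 0 / 2)) hd h1
    have h3 : ((fun z => PP (fun r => 1 * phiInf T r) (Real.log z + 1 * phiInf T 0 / 2)) ∘
        fun μ => Real.exp (μ - phiInf T 0 / 2)) = PP (phiInf T) := by
      funext μ; simp
    rwa [h3] at h2

end Vale.Agent.P171
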