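import Vale.Agent.P171.Upper

/-! The multi-scale potential. -/

namespace Vale.Agent.P171

open MeasureTheory Set Filter Topology

/-- first coupling -/
noncomputable def bs : ℝ := 2000000
/-- core strength -/
noncomputable def AA : ℝ := 1674 * bs
/-- superstability constant -/
noncomputable def kk : ℝ := 4 * bs

lemma bs_ge : 1 ≤ bs := by unfold bs; norm_num
lemma AA_pos : 0 < AA := by unfold AA; have := bs_ge; positivity
lemma kk_pos : 0 < kk := by unfold kk; have := bs_ge; positivity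

/-- repulsive core -/
noncomputable def core (r : ℝ) : ℝ := AA * max 0 (4 - r)

lemma core_cont : Continuous core := by unfold core; fun_prop
lemma core_nonneg (r : ℝ) : 0 ≤ core r := mul_nonneg AA_pos.le (le_max_left _ _)
lemma core_zero {r : ℝ} (h : 4 ≤ r) : core r = 0 := by
  unfold core; rw [max_eq_left (by linarith), mul_zero]
lemma core_at_zero : core 0 = 4 * AA := by unfold core; norm_num; ring

lemma core_lower {N : ℕ} (x : Fin N → E3) : AA * SS 1 0 x ≤ pairSum core x := by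
  unfold SS pairSum
  rw [Finset.mul_sum]
  refine Finset.sum_le_sum (fun i _ => ?_)
  rw [Finset.mul_sum]
  refine Finset.sum_le_sum (fun j _ => ?_)
  split_ifs with h
  · have h1 := dist_le_of_blk one_pos h
    unfold core
    exact mul_le_mul_of_nonneg_left (le_trans (by linarith) (le_max_right _ _)) AA_pos.le
  · rw [mul_zero]; exact core_nonneg _

lemma stab {Ψ : ℝ → ℝ} (hΨ : ∀ (N : ℕ) (x : Fin N → E3), pairSum Ψ x ≤ 54 * bs * SS 1 0 x)
    {c L : ℝ} (hc1 : c ≤ 54 * bs) (hL : 1 ≤ L) :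
    SSt kk (fun r => core r - 2 * Ψ r - c / L ^ 3) L := by
  intro N x hx
  rw [pairSum_sub, pairSum_sub, pairSum_mul, pairSum_const]
  have h1 := core_lower x
  have h2 := hΨ N x
  have h3 := sq_le_SS hL hx
  have hv : 0 < L ^ 3 := by positivity
  have h4 : (N : ℝ) ^ 2 / L ^ 3 ≤ 27 * SS 1 0 x := by
    rw [div_le_iff₀ hv]; linarith
  have h5 : 0 ≤ (N : ℝ) ^ 2 / L ^ 3 := by positivity
  have h6 : kk * N ^ 2 / L ^ 3 = kk * ((N : ℝ) ^ 2 / L ^ 3) := by ring
  have h7 : c / L ^ 3 * N ^ 2 = c * ((N : ℝ) ^ 2 / L ^ 3) := by ring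
  have hb := bs_ge
  have h8 := mul_le_mul_of_nonneg_right hc1 h5
  have h9 := mul_le_mul_of_nonneg_left h4 (show 0 ≤ 58 * bs by positivity)
  rw [h6, h7]
  unfold kk
  unfold AA at h1
  nlinarith

lemma good_of {Ψ : ℝ → ℝ} (hm : Measurable Ψ) (h0 : ∀ r, 0 ≤ Ψ r)
    (hΨ : ∀ (N : ℕ) (x : Fin N → E3), pairSum Ψ x ≤ 54 * bs * SS 1 0 x) :
    Good kk (fun r => core r - Ψ r) where
  pos := kk_pos
  meas := core_cont.measurable.sub hm
  neg := fun r hr => by rw [core_zero hr]; linarith [h0 r]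
  sst := fun L hL N x hx =>
    le_trans (stab hΨ (c := 0) (by have := bs_ge; positivity) hL N x hx)
      (pairSum_mono (fun r => by have := h0 r; simp only [zero_div]; linarith) x)

/-- doubly exponential scales -/
def vv (T n : ℕ) : ℕ := T ^ (2 ^ n)

/-- interaction radii -/
noncomputable def RR (T n : ℕ) : ℝ := (vv T n : ℝ) ^ 24

/-- couplings -/
noncomputable def bb (T n : ℕ) : ℝ := if n = 0 then bs else 1 / (vv T n : ℝ) ^ 2

lemma vv_succ (T n : ℕ) : vv T (n + 1) = vv T n ^ 2 := by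
  unfold vv; rw [← pow_mul, pow_succ]

lemma vv_ge {T : ℕ} (hT : 2 ≤ T) (n : ℕ) : T * 2 ^ n ≤ vv T n := by
  induction n with
  | zero => simp [vv]
  | succ n ih =>
    rw [vv_succ, pow_succ, sq]
    have : 2 ≤ vv T n := le_trans (le_trans hT (Nat.le_mul_of_pos_right _ (by positivity))) ih
    calc T * (2 ^ n * 2) = (T * 2 ^ n) * 2 := by ring
      _ ≤ vv T n * vv T n := Nat.mul_le_mul ih this

lemma vv_ge' {T : ℕ} (hT : 2 ≤ T) (n : ℕ) : (T : ℝ) * 2 ^ n ≤ vv T n := by
  exact_mod_cast vv_ge hT n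

lemma pow_le_vv {T : ℕ} (hT : 2 ≤ T) (n : ℕ) : (2 : ℝ) * 2 ^ n ≤ vv T n := by
  have h1 : (2 : ℝ) ≤ T := by exact_mod_cast hT
  exact le_trans (mul_le_mul_of_nonneg_right h1 (by positivity)) (vv_ge' hT n)

lemma two_le_vv {T : ℕ} (hT : 2 ≤ T) (n : ℕ) : (2 : ℝ) ≤ vv T n := by
  have h1 : (1 : ℝ) ≤ 2 ^ n := one_le_pow₀ (by norm_num)
  linarith [pow_le_vv hT n]

lemma vv_mono {T : ℕ} (hT : 2 ≤ T) {m n : ℕ} (h : m ≤ n) : (vv T m : ℝ) ≤ vv T n := by
  have : vv T m ≤ vv T n :=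
    Nat.pow_le_pow_right (by omega) (Nat.pow_le_pow_right (by norm_num) h)
  exact_mod_cast this

lemma one_le_RR {T : ℕ} (hT : 2 ≤ T) (n : ℕ) : 1 ≤ RR T n :=
  one_le_pow₀ (by linarith [two_le_vv hT n])

lemma RR_mono {T : ℕ} (hT : 2 ≤ T) {m n : ℕ} (h : m ≤ n) : RR T m ≤ RR T n :=
  pow_le_pow_left₀ (by positivity) (vv_mono hT h) _

lemma bb_pos {T : ℕ} (hT : 2 ≤ T) (n : ℕ) : 0 < bb T n := by
  have := bs_ge
  have := two_le_vv hT n
  unfold bb; split_ifs <;> positivity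

lemma bb_le {T : ℕ} (hT : 2 ≤ T) (n : ℕ) : bb T n ≤ bs * (1 / 2) ^ n := by
  have hb := bs_ge
  unfold bb; split_ifs with h
  · rw [h]; simp
  · have h1 := pow_le_vv hT n
    have h2 := two_le_vv hT n
    have h3 : (0 : ℝ) < 2 ^ n := by positivity
    have h4 : 1 / (vv T n : ℝ) ^ 2 ≤ (1 / 2) ^ n := by
      rw [one_div_pow]
      exact one_div_le_one_div_of_le h3 (by nlinarith)
    have h5 : (0 : ℝ) ≤ (1 / 2) ^ n := by positivity
    nlinarith

lemma bb_le_bs {T : ℕ} (hT : 2 ≤ T) (n : ℕ) : bb T n ≤ bs := by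
  have h1 : ((1 : ℝ) / 2) ^ n ≤ 1 := pow_le_one₀ (by norm_num) (by norm_num)
  have := bb_le hT n
  have := bs_ge
  nlinarith

/-- attractive part up to scale `n` -/
noncomputable def Psi (T n : ℕ) (r : ℝ) : ℝ := ∑ k ∈ Finset.range n, bb T k * psi (RR T k) r

/-- attractive part from scale `n` on -/
noncomputable def tail (T n : ℕ) (r : ℝ) : ℝ := ∑' k, bb T (k + n) * psi (RR T (k + n)) r

lemma term_nonneg {T : ℕ} (hT : 2 ≤ T) (k : ℕ) (r : ℝ) : 0 ≤ bb T k * psi (RR T k) r :=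
  mul_nonneg (bb_pos hT k).le (psi_nonneg _ _)

lemma term_le {T : ℕ} (hT : 2 ≤ T) (k : ℕ) (r : ℝ) :
    bb T k * psi (RR T k) r ≤ bs / om * (1 / 2) ^ k := by
  have h1 := one_le_RR hT k
  have hom := om_pos
  have h2 : psi (RR T k) r ≤ 1 / om := by
    refine le_trans (psi_le (by linarith) r) (one_div_le_one_div_of_le hom ?_)
    have : 1 ≤ RR T k ^ 3 := one_le_pow₀ h1
    nlinarith
  calc bb T k * psi (RR T k) r ≤ (bs * (1 / 2) ^ k) * (1 / om) :=
        mul_le_mul (bb_le hT k) h2 (psi_nonneg _ _) (by have := bs_ge; positivity)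
    _ = _ := by ring

lemma summable_term {T : ℕ} (hT : 2 ≤ T) (r : ℝ) :
    Summable (fun k => bb T k * psi (RR T k) r) :=
  Summable.of_nonneg_of_le (fun k => term_nonneg hT k r) (fun k => term_le hT k r)
    (summable_geometric_two.mul_left _)

lemma tail_nonneg {T : ℕ} (hT : 2 ≤ T) (n : ℕ) (r : ℝ) : 0 ≤ tail T n r :=
  tsum_nonneg (fun _ => term_nonneg hT _ r)

lemma Psi_nonneg {T : ℕ} (hT : 2 ≤ T) (n : ℕ) (r : ℝ) : 0 ≤ Psi T n r :=
  Finset.sum_nonneg (fun k _ => term_nonneg hT k r)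

lemma Psi_add_tail {T : ℕ} (hT : 2 ≤ T) (n : ℕ) (r : ℝ) : Psi T n r + tail T n r = tail T 0 r :=
  (summable_term hT r).sum_add_tsum_nat_add n

lemma Psi_succ (T n : ℕ) (r : ℝ) : Psi T (n + 1) r = Psi T n r + bb T n * psi (RR T n) r :=
  Finset.sum_range_succ _ _

lemma Psi_cont {T : ℕ} (hT : 2 ≤ T) (n : ℕ) : Continuous (Psi T n) :=
  continuous_finsetSum _ (fun k _ =>
    continuous_const.mul (psi_cont (by linarith [one_le_RR hT k])))

lemma tail_cont {T : ℕ} (hT : 2 ≤ T) : Continuous (tail T 0) :=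
  continuous_tsum (u := fun k => bs / om * (1 / 2) ^ k)
    (fun k => continuous_const.mul (psi_cont (by linarith [one_le_RR hT (k + 0)])))
    (summable_geometric_two.mul_left _)
    (fun k r => by rw [Real.norm_eq_abs, abs_of_nonneg (term_nonneg hT _ r)]; exact term_le hT k r)

lemma tail_bound {T : ℕ} (hT : 2 ≤ T) (r : ℝ) : tail T 0 r ≤ bs / om * 2 := by
  have := Summable.tsum_le_tsum (fun k => term_le hT k r) (summable_term hT r)
    (summable_geometric_two.mul_left _)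
  rwa [tsum_mul_left, tsum_geometric_two] at this

lemma tail_dom {T : ℕ} (hT : 2 ≤ T) (n : ℕ) {h : ℝ} (hh : 0 < h) (hR : h ≤ RR T n) (s : ℝ) {N : ℕ}
    (x : Fin N → E3) : pairSum (tail T n) x ≤ 54 * bs * (1 / 2) ^ n / h ^ 3 * SS h s x := by
  have hs : ∀ r, Summable (fun k => bb T (k + n) * psi (RR T (k + n)) r) :=
    fun r => (summable_nat_add_iff n).2 (summable_term hT r)
  have h1 : pairSum (tail T n) x
      = ∑' k, ∑ i, ∑ j, bb T (k + n) * psi (RR T (k + n)) (dist (x i) (x j)) := by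
    unfold pairSum tail
    rw [Summable.tsum_finsetSum (fun i _ => summable_sum (fun j _ => hs _))]
    exact Finset.sum_congr rfl (fun i _ => (Summable.tsum_finsetSum (fun j _ => hs _)).symm)
  have hS := SS_nonneg h s x
  have hb := bs_ge
  have h2 : ∀ k, ∑ i, ∑ j, bb T (k + n) * psi (RR T (k + n)) (dist (x i) (x j))
      ≤ 27 * bs * (1 / 2) ^ n / h ^ 3 * SS h s x * (1 / 2) ^ k := by
    intro k
    simp only [← Finset.mul_sum]
    have h3 := one_le_RR hT (k + n)
    have h4 := psi_upper (R := RR T (k + n)) (by linarith) hh s x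
    have h5 : (1 + 2 * h / RR T (k + n)) ^ 3 ≤ 27 := by
      have h6 : 2 * h / RR T (k + n) ≤ 2 := by
        rw [div_le_iff₀ (by linarith)]
        linarith [RR_mono hT (Nat.le_add_left n k)]
      calc (1 + 2 * h / RR T (k + n)) ^ 3 ≤ 3 ^ 3 :=
            pow_le_pow_left₀ (by positivity) (by linarith) 3
        _ = 27 := by norm_num
    have h7 : (1 + 2 * h / RR T (k + n)) ^ 3 / h ^ 3 * SS h s x ≤ 27 / h ^ 3 * SS h s x :=
      mul_le_mul_of_nonneg_right (div_le_div_of_nonneg_right h5 (by positivity)) hS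
    calc bb T (k + n) * ∑ i, ∑ j, psi (RR T (k + n)) (dist (x i) (x j))
        ≤ (bs * (1 / 2) ^ (k + n)) * (27 / h ^ 3 * SS h s x) :=
          mul_le_mul (bb_le hT _) (le_trans h4 h7)
            (Finset.sum_nonneg (fun _ _ => Finset.sum_nonneg (fun _ _ => psi_nonneg _ _)))
            (by positivity)
      _ = _ := by rw [pow_add]; ring
  rw [h1]
  have h8 := Summable.tsum_le_tsum h2 (summable_sum (fun i _ => summable_sum (fun j _ => hs _)))
    (summable_geometric_two.mul_left _)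
  rw [tsum_mul_left, tsum_geometric_two] at h8
  refine le_trans h8 (le_of_eq (by ring))

lemma tail_dom_one {T : ℕ} (hT : 2 ≤ T) (N : ℕ) (x : Fin N → E3) :
    pairSum (tail T 0) x ≤ 54 * bs * SS 1 0 x := by
  simpa using tail_dom hT 0 one_pos (one_le_RR hT 0) 0 x

lemma Psi_dom_one {T : ℕ} (hT : 2 ≤ T) (n : ℕ) (N : ℕ) (x : Fin N → E3) :
    pairSum (Psi T n) x ≤ 54 * bs * SS 1 0 x :=
  le_trans (pairSum_mono (fun r => by
    linarith [Psi_add_tail hT n r, tail_nonneg hT n r]) x) (tail_dom_one hT N x)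

/-- truncated potential -/
noncomputable def phi (T n : ℕ) (r : ℝ) : ℝ := core r - Psi T n r

/-- the potential -/
noncomputable def phiInf (T : ℕ) (r : ℝ) : ℝ := core r - tail T 0 r

lemma good_phi {T : ℕ} (hT : 2 ≤ T) (n : ℕ) : Good kk (phi T n) :=
  good_of (Psi_cont hT n).measurable (Psi_nonneg hT n) (Psi_dom_one hT n)

lemma good_phiInf {T : ℕ} (hT : 2 ≤ T) : Good kk (phiInf T) :=
  good_of (tail_cont hT).measurable (tail_nonneg hT 0) (tail_dom_one hT)

lemma Psi_supp {T : ℕ} (hT : 2 ≤ T) (n : ℕ) {r : ℝ} (hr : 2 * (vv T n : ℝ) ^ 12 < r) :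
    Psi T n r = 0 := by
  refine Finset.sum_eq_zero (fun k hk => ?_)
  have h1 : RR T k ≤ (vv T n : ℝ) ^ 12 := by
    have h2 : RR T k = (vv T (k + 1) : ℝ) ^ 12 := by
      unfold RR; rw [vv_succ]; push_cast; ring
    rw [h2]
    exact pow_le_pow_left₀ (by positivity) (vv_mono hT (Finset.mem_range.1 hk)) _
  rw [psi_zero (by linarith), mul_zero]

/-- power-law decay of the attractive part -/
lemma tail_decay {T : ℕ} (hT : 2 ≤ T) : ∃ C : ℝ, 0 < C ∧ ∀ r : ℝ, 0 < r →
    tail T 0 r ≤ C * r ^ (-3 - 1 / 24 : ℝ) := by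
  have hb := bs_ge
  have hom := om_pos
  have hT' : (2 : ℝ) ≤ T := by exact_mod_cast hT
  set D : ℝ := bs * T ^ 2 / om * 2 ^ (73 / 24 : ℝ) with hD
  have hD0 : 0 < D := by positivity
  refine ⟨D * 2, by positivity, fun r hr => ?_⟩
  have h1 : ∀ k, bb T k * psi (RR T k) r ≤ D * r ^ (-3 - 1 / 24 : ℝ) * (1 / 2) ^ k := by
    intro k
    have hv := two_le_vv hT k
    have hv2 := pow_le_vv hT k
    have hR := one_le_RR hT k
    rcases lt_or_ge (2 * RR T k) r with h | h
    · rw [psi_zero h, mul_zero]; positivity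
    have h2 : bb T k ≤ bs * T ^ 2 / (vv T k : ℝ) ^ 2 := by
      unfold bb; split_ifs with hk
      · rw [hk]; simp only [vv, pow_zero, pow_one]
        rw [mul_div_assoc, div_self (by positivity), mul_one]
      · refine div_le_div_of_nonneg_right ?_ (by positivity)
        nlinarith
    have h3 := psi_le (R := RR T k) (by linarith) r
    have h4 : (2 * RR T k) ^ (-3 - 1 / 24 : ℝ) ≤ r ^ (-3 - 1 / 24 : ℝ) :=
      Real.rpow_le_rpow_of_nonpos hr h (by norm_num)
    have h5 : (2 * RR T k) ^ (-3 - 1 / 24 : ℝ)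
        = (2 ^ (73 / 24 : ℝ))⁻¹ * ((vv T k : ℝ) ^ 73)⁻¹ := by
      rw [Real.mul_rpow (by norm_num) (by linarith), RR, ← Real.rpow_natCast,
        ← Real.rpow_mul (by positivity), ← Real.rpow_neg (by norm_num), ← Real.rpow_natCast,
        ← Real.rpow_neg (by positivity)]
      norm_num
    have h6 : (1 : ℝ) / vv T k ≤ (1 / 2) ^ k := by
      rw [one_div_pow]
      exact one_div_le_one_div_of_le (by positivity) (by linarith [pow_pos (two_pos (α := ℝ)) k])
    calc bb T k * psi (RR T k) r ≤ (bs * T ^ 2 / (vv T k : ℝ) ^ 2) * (1 / (RR T k ^ 3 * om)) :=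
          mul_le_mul h2 h3 (psi_nonneg _ _) (by positivity)
      _ = D * (2 * RR T k) ^ (-3 - 1 / 24 : ℝ) * (1 / vv T k) := by
          rw [h5, hD, RR]; field_simp
      _ ≤ D * r ^ (-3 - 1 / 24 : ℝ) * (1 / 2) ^ k :=
          mul_le_mul (mul_le_mul_of_nonneg_left h4 hD0.le) h6 (by positivity) (by positivity)
  have h7 := Summable.tsum_le_tsum h1 (summable_term hT r) (summable_geometric_two.mul_left _)
  rw [tsum_mul_left, tsum_geometric_two] at h7
  refine le_trans h7 (le_of_eq (by ring))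

end Vale.Agent.P171
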