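import Vale.Agent.P171.Geo

/-! The normalized self-overlap of a ball as a radial potential. -/

namespace Vale.Agent.P171

open MeasureTheory Set Metric
open scoped ENNReal

/-- volume of the unit ball -/
noncomputable def om : ℝ := volume.real (ball (0 : E3) 1)

lemma om_pos : 0 < om :=
  ENNReal.toReal_pos (measure_ball_pos volume (0 : E3) one_pos).ne' measure_ball_lt_top.ne

lemma vol_cB (x : E3) {R : ℝ} (hR : 0 ≤ R) : volume.real (closedBall x R) = R ^ 3 * om := by
  rw [Measure.addHaar_real_closedBall volume x hR]; simp [om]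

/-- first basis vector -/
noncomputable def e0 : E3 := EuclideanSpace.single 0 1

lemma norm_e0 : ‖e0‖ = 1 := by simp [e0]

/-- overlap volume of two balls of radius `R` at distance `r`, normalized -/
noncomputable def psi (R r : ℝ) : ℝ :=
  volume.real (closedBall (0 : E3) R ∩ closedBall (r • e0) R) / (R ^ 3 * om) ^ 2

lemma psi_dist (R : ℝ) (x y : E3) :
    psi R (dist x y) = volume.real (closedBall x R ∩ closedBall y R) / (R ^ 3 * om) ^ 2 := by
  unfold psi
  congr 1
  have hn : ‖dist x y • e0‖ = ‖y - x‖ := by
    rw [norm_smul, norm_e0, mul_one, Real.norm_eq_abs, abs_of_nonneg dist_nonneg, dist_comm,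
      dist_eq_norm]
  set f := (Submodule.span ℝ {dist x y • e0 - (y - x)})ᗮ.reflection with hf
  have h1 : f (dist x y • e0) = y - x := Submodule.reflection_sub hn
  have hmp : MeasurePreserving (fun z => f z + x) volume volume :=
    (measurePreserving_add_right volume x).comp f.measurePreserving
  have h2 : (fun z => f z + x) ⁻¹' (closedBall x R ∩ closedBall y R)
      = closedBall (0 : E3) R ∩ closedBall (dist x y • e0) R := by
    ext z
    simp only [mem_preimage, mem_inter_iff, mem_closedBall]
    have a1 : dist (f z + x) x = dist z 0 := by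
      rw [dist_eq_norm, add_sub_cancel_right, f.norm_map, dist_zero_right]
    have a2 : dist (f z + x) y = dist z (dist x y • e0) := by
      rw [← f.dist_map z, h1, dist_eq_norm, dist_eq_norm]
      congr 1; abel
    rw [a1, a2]
  rw [← h2]
  exact hmp.measureReal_preimage
    (measurableSet_closedBall.inter measurableSet_closedBall).nullMeasurableSet

lemma psi_nonneg (R r : ℝ) : 0 ≤ psi R r := div_nonneg measureReal_nonneg (sq_nonneg _)

lemma psi_le {R : ℝ} (hR : 0 < R) (r : ℝ) : psi R r ≤ 1 / (R ^ 3 * om) := by
  have h0 : 0 < R ^ 3 * om := mul_pos (pow_pos hR 3) om_pos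
  unfold psi
  have h1 : volume.real (closedBall (0 : E3) R ∩ closedBall (r • e0) R) ≤ R ^ 3 * om := by
    rw [← vol_cB 0 hR.le]
    exact measureReal_mono inter_subset_left measure_closedBall_lt_top.ne
  rw [div_le_div_iff₀ (by positivity) h0]
  nlinarith

lemma psi_zero {R r : ℝ} (h : 2 * R < r) : psi R r = 0 := by
  unfold psi
  rcases lt_or_ge R 0 with hR | hR
  · rw [closedBall_eq_empty.2 hR]; simp
  have : closedBall (0 : E3) R ∩ closedBall (r • e0) R = ∅ := by
    rw [← disjoint_iff_inter_eq_empty]
    apply closedBall_disjoint_closedBall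
    rw [dist_zero_left, norm_smul, norm_e0, mul_one, Real.norm_eq_abs]
    linarith [le_abs_self r]
  rw [this]; simp

lemma psi_cont {R : ℝ} (hR : 0 < R) : Continuous (psi R) := by
  have key : ∀ r r' : ℝ, volume.real (closedBall (0 : E3) R ∩ closedBall (r • e0) R) ≤
      volume.real (closedBall (0 : E3) R ∩ closedBall (r' • e0) R)
        + ((R + |r - r'|) ^ 3 - R ^ 3) * om := by
    intro r r'
    have hsub : closedBall (0 : E3) R ∩ closedBall (r • e0) R ⊆
        (closedBall (0 : E3) R ∩ closedBall (r' • e0) R) ∪
          (closedBall (r' • e0) (R + |r - r'|) \ closedBall (r' • e0) R) := by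
      intro z hz
      by_cases h : z ∈ closedBall (r' • e0) R
      · exact Or.inl ⟨hz.1, h⟩
      · refine Or.inr ⟨?_, h⟩
        have h1 : dist (r • e0) (r' • e0) = |r - r'| := by
          rw [dist_eq_norm, ← sub_smul, norm_smul, norm_e0, mul_one, Real.norm_eq_abs]
        have h2 := dist_triangle z (r • e0) (r' • e0)
        have h3 := mem_closedBall.1 hz.2
        rw [mem_closedBall]; linarith
    have hfin : volume ((closedBall (0 : E3) R ∩ closedBall (r' • e0) R) ∪
          (closedBall (r' • e0) (R + |r - r'|) \ closedBall (r' • e0) R)) ≠ ⊤ :=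
      measure_union_ne_top (measure_ne_top_of_subset inter_subset_left measure_closedBall_lt_top.ne)
        (measure_ne_top_of_subset sdiff_subset measure_closedBall_lt_top.ne)
    refine le_trans (measureReal_mono hsub hfin) (le_trans (measureReal_union_le _ _) ?_)
    rw [measureReal_sdiff (closedBall_subset_closedBall (by linarith [abs_nonneg (r - r')]))
      measurableSet_closedBall measure_closedBall_lt_top.ne, vol_cB _ hR.le,
      vol_cB _ (by positivity)]
    linarith
  have hc : Continuous (fun r : ℝ => volume.real (closedBall (0 : E3) R ∩ closedBall (r • e0) R)) := by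
    rw [continuous_iff_continuousAt]
    intro r0
    have h1 : Filter.Tendsto (fun r : ℝ => ((R + |r - r0|) ^ 3 - R ^ 3) * om) (nhds r0) (nhds 0) := by
      have : Continuous (fun r : ℝ => ((R + |r - r0|) ^ 3 - R ^ 3) * om) := by fun_prop
      have h2 := this.tendsto r0
      simpa using h2
    rw [ContinuousAt, tendsto_iff_dist_tendsto_zero]
    refine squeeze_zero (fun _ => dist_nonneg) (fun r => ?_) h1
    rw [Real.dist_eq, abs_le]
    have h3 := key r r0
    have h4 := key r0 r
    rw [abs_sub_comm r0 r] at h4
    constructor <;> linarith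
  exact hc.div_const _

lemma integrable_ind {A : Set E3} (hA : MeasurableSet A) (hf : volume A ≠ ⊤) :
    Integrable (A.indicator (1 : E3 → ℝ)) volume :=
  (integrableOn_const (C := (1 : ℝ)) hf).integrable_indicator hA

lemma integrable_cB (x : E3) (R : ℝ) : Integrable ((closedBall x R).indicator (1 : E3 → ℝ)) volume :=
  integrable_ind measurableSet_closedBall measure_closedBall_lt_top.ne

lemma integrable_cB2 (x y : E3) (R : ℝ) :
    Integrable ((closedBall x R ∩ closedBall y R).indicator (1 : E3 → ℝ)) volume :=
  integrable_ind (measurableSet_closedBall.inter measurableSet_closedBall)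
    (measure_ne_top_of_subset inter_subset_left measure_closedBall_lt_top.ne)

lemma sum_psi_eq (R : ℝ) {N : ℕ} (x : Fin N → E3) :
    ∑ i, ∑ j, psi R (dist (x i) (x j)) =
      (∫ y, ∑ i, ∑ j, (closedBall (x i) R ∩ closedBall (x j) R).indicator (1 : E3 → ℝ) y)
        / (R ^ 3 * om) ^ 2 := by
  rw [integral_finsetSum _ (fun i _ => integrable_finsetSum _ (fun j _ => integrable_cB2 _ _ _)),
    Finset.sum_div]
  refine Finset.sum_congr rfl (fun i _ => ?_)
  rw [integral_finsetSum _ (fun j _ => integrable_cB2 _ _ _), Finset.sum_div]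
  refine Finset.sum_congr rfl (fun j _ => ?_)
  rw [psi_dist, integral_indicator_one (measurableSet_closedBall.inter measurableSet_closedBall)]

lemma sum_ind_sq (R : ℝ) {N : ℕ} (x : Fin N → E3) (y : E3) :
    ∑ i, ∑ j, (closedBall (x i) R ∩ closedBall (x j) R).indicator (1 : E3 → ℝ) y
      = (∑ i, (closedBall (x i) R).indicator (1 : E3 → ℝ) y) ^ 2 := by
  rw [sq, Finset.sum_mul_sum]
  refine Finset.sum_congr rfl (fun i _ => Finset.sum_congr rfl (fun j _ => ?_))
  rw [inter_indicator_one]; rfl

/-- mean-field lower bound -/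
theorem psi_lower {R L : ℝ} (hR : 0 < R) (hL : 0 ≤ L) (m : ℝ) {N : ℕ} {x : Fin N → E3}
    (hx : ∀ i, x i ∈ cube L) :
    2 * m * N - m ^ 2 * (L + 2 * R) ^ 3 ≤ ∑ i, ∑ j, psi R (dist (x i) (x j)) := by
  set V := R ^ 3 * om with hV
  have hV0 : 0 < V := mul_pos (pow_pos hR 3) om_pos
  set Q := tcube (fun _ => -R) (L + 2 * R) with hQ
  have hQv : volume Q = ENNReal.ofReal ((L + 2 * R) ^ 3) := vol_tcube _ (by positivity)
  have hQi : Integrable (Q.indicator (1 : E3 → ℝ)) volume :=
    integrable_ind (meas_tcube _ _) (by rw [hQv]; exact ENNReal.ofReal_ne_top)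
  have hni : Integrable (fun y => ∑ i, (closedBall (x i) R).indicator (1 : E3 → ℝ) y) volume :=
    integrable_finsetSum _ (fun i _ => integrable_cB _ _)
  rw [sum_psi_eq, le_div_iff₀ (by positivity)]
  have h1 : ∫ y, (2 * m * V * ∑ i, (closedBall (x i) R).indicator (1 : E3 → ℝ) y
      - (m * V) ^ 2 * Q.indicator (1 : E3 → ℝ) y) ≤
      ∫ y, ∑ i, ∑ j, (closedBall (x i) R ∩ closedBall (x j) R).indicator (1 : E3 → ℝ) y := by
    refine integral_mono ((hni.const_mul _).sub (hQi.const_mul _))
      (integrable_finsetSum _ (fun i _ => integrable_finsetSum _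
        (fun j _ => integrable_cB2 _ _ _))) (fun y => ?_)
    simp only [sum_ind_sq]
    by_cases hy : y ∈ Q
    · rw [indicator_of_mem hy, Pi.one_apply]
      nlinarith [sq_nonneg (∑ i, (closedBall (x i) R).indicator (1 : E3 → ℝ) y - m * V)]
    · have h2 : ∑ i, (closedBall (x i) R).indicator (1 : E3 → ℝ) y = 0 := by
        refine Finset.sum_eq_zero (fun i _ => indicator_of_notMem (fun h => hy (fun a => ?_)) _)
        have h3 := le_trans (coord_le_dist y (x i) a) (mem_closedBall.1 h)
        rw [abs_le] at h3
        have h4 := hx i a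
        constructor
        · linarith [h3.1, h4.1]
        · linarith [h3.2, h4.2]
      rw [h2, indicator_of_notMem hy]; simp
  rw [integral_sub (hni.const_mul _) (hQi.const_mul _), integral_const_mul, integral_const_mul,
    integral_finsetSum _ (fun i _ => integrable_cB _ _),
    integral_indicator_one (meas_tcube _ _)] at h1
  simp only [integral_indicator_one measurableSet_closedBall, vol_cB _ hR.le, Finset.sum_const,
    Finset.card_univ, Fintype.card_fin, nsmul_eq_mul] at h1
  rw [Measure.real, hQv, ENNReal.toReal_ofReal (by positivity), ← hV] at h1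
  nlinarith

/-- mean-field upper bound by block occupation numbers -/
theorem psi_upper {R h : ℝ} (hR : 0 < R) (hh : 0 < h) (s : ℝ) {N : ℕ} (x : Fin N → E3) :
    ∑ i, ∑ j, psi R (dist (x i) (x j)) ≤ (1 + 2 * h / R) ^ 3 / h ^ 3 * SS h s x := by
  classical
  set V := R ^ 3 * om with hV
  have hV0 : 0 < V := mul_pos (pow_pos hR 3) om_pos
  set K := (R + 2 * h) ^ 3 * om / h ^ 3 with hK
  have hom := om_pos
  have hK0 : 0 ≤ K := by positivity
  rw [sum_psi_eq, div_le_iff₀ (by positivity)]
  have hint : ∀ i j, Integrable (fun y => (if blk h s (x i) = blk h s (x j) then (1 : ℝ) else 0) *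
      (closedBall (x i) R).indicator (1 : E3 → ℝ) y) volume :=
    fun i j => (integrable_cB _ _).const_mul _
  have h1 : ∫ y, ∑ i, ∑ j, (closedBall (x i) R ∩ closedBall (x j) R).indicator (1 : E3 → ℝ) y ≤
      ∫ y, K * ∑ i, ∑ j, (if blk h s (x i) = blk h s (x j) then (1 : ℝ) else 0) *
        (closedBall (x i) R).indicator (1 : E3 → ℝ) y := by
    refine integral_mono (integrable_finsetSum _ (fun i _ => integrable_finsetSum _
        (fun j _ => integrable_cB2 _ _ _)))
      ((integrable_finsetSum _ (fun i _ => integrable_finsetSum _ (fun j _ => hint i j))).const_mul _)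
      (fun y => ?_)
    simp only [sum_ind_sq]
    set J : Finset (Fin N) := Finset.univ.filter (fun i => y ∈ closedBall (x i) R) with hJ
    have h2 : ∑ i, (closedBall (x i) R).indicator (1 : E3 → ℝ) y = J.card := by
      rw [hJ, Finset.card_filter]; push_cast
      exact Finset.sum_congr rfl (fun i _ => by rw [indicator_apply]; rfl)
    set T := J.image (fun i => blk h s (x i)) with hT
    have h3 := card_sq_le (fun i => blk h s (x i)) J T (fun i hi => Finset.mem_image_of_mem _ hi)
    have h4 : (T.card : ℝ) ≤ K := by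
      rw [hK, le_div_iff₀ (by positivity), ← vol_cB y (by positivity)]
      have h5 : volume.real (⋃ k ∈ T, blk h s ⁻¹' {k}) = ∑ k ∈ T, volume.real (blk h s ⁻¹' {k}) :=
        measureReal_biUnion_finset (fun a _ b _ hab =>
          Disjoint.preimage _ (disjoint_singleton.2 hab)) (fun k _ => meas_cell h s k)
          (fun k _ => by rw [vol_cell hh]; exact ENNReal.ofReal_ne_top)
      have h6 : ∀ k, volume.real (blk h s ⁻¹' {k}) = h ^ 3 := fun k => by
        rw [Measure.real, vol_cell hh, ENNReal.toReal_ofReal (by positivity)]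
      simp only [h6, Finset.sum_const, nsmul_eq_mul] at h5
      rw [← h5]
      refine measureReal_mono (fun z hz => ?_) measure_closedBall_lt_top.ne
      simp only [mem_iUnion] at hz
      obtain ⟨k, hk, hz⟩ := hz
      obtain ⟨i, hi, rfl⟩ := Finset.mem_image.1 hk
      have h7 := dist_le_of_blk hh (s := s) (x := z) (y := x i) hz
      have h8 := mem_closedBall.1 (Finset.mem_filter.1 hi).2
      rw [mem_closedBall]
      have h9 := dist_triangle z (x i) y
      rw [dist_comm (x i) y] at h9
      linarith
    have h10 : ∑ i ∈ J, ∑ j ∈ J, (if blk h s (x i) = blk h s (x j) then (1 : ℝ) else 0) ≤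
        ∑ i, ∑ j, (if blk h s (x i) = blk h s (x j) then (1 : ℝ) else 0) *
          (closedBall (x i) R).indicator (1 : E3 → ℝ) y := by
      have hnn : ∀ i j, 0 ≤ (if blk h s (x i) = blk h s (x j) then (1 : ℝ) else 0) :=
        fun i j => by split_ifs <;> norm_num
      calc ∑ i ∈ J, ∑ j ∈ J, (if blk h s (x i) = blk h s (x j) then (1 : ℝ) else 0)
          ≤ ∑ i ∈ J, ∑ j, (if blk h s (x i) = blk h s (x j) then (1 : ℝ) else 0) *
              (closedBall (x i) R).indicator (1 : E3 → ℝ) y := by
            refine Finset.sum_le_sum (fun i hi => ?_)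
            rw [indicator_of_mem (Finset.mem_filter.1 hi).2]
            simp only [Pi.one_apply, mul_one]
            exact Finset.sum_le_sum_of_subset_of_nonneg (Finset.subset_univ _)
              (fun j _ _ => hnn i j)
        _ ≤ _ := Finset.sum_le_sum_of_subset_of_nonneg (Finset.subset_univ _)
              (fun i _ _ => Finset.sum_nonneg (fun j _ => mul_nonneg (hnn i j)
                (indicator_nonneg (fun _ _ => zero_le_one) _)))
    have h11 : 0 ≤ ∑ i ∈ J, ∑ j ∈ J, (if blk h s (x i) = blk h s (x j) then (1 : ℝ) else 0) :=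
      Finset.sum_nonneg (fun _ _ => Finset.sum_nonneg (fun _ _ => by split_ifs <;> norm_num))
    rw [h2]
    exact le_trans h3 (mul_le_mul h4 h10 h11 hK0)
  rw [integral_const_mul,
    integral_finsetSum _ (fun i _ => integrable_finsetSum _ (fun j _ => hint i j))] at h1
  simp only [integral_finsetSum _ (fun j _ => hint _ j), integral_const_mul,
    integral_indicator_one measurableSet_closedBall, vol_cB _ hR.le] at h1
  simp only [← Finset.sum_mul] at h1
  refine le_trans h1 (le_of_eq ?_)
  unfold SS
  rw [hK]
  field_simp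

end Vale.Agent.P171
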