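import Vale.Agent.P171.Psi

/-! Finite-volume free energies and the pressure. -/

namespace Vale.Agent.P171

open MeasureTheory Set Filter Topology
open scoped ENNReal

/-- full double sum of a radial function -/
noncomputable def pairSum (φ : ℝ → ℝ) {N : ℕ} (x : Fin N → E3) : ℝ :=
  ∑ i, ∑ j, φ (dist (x i) (x j))

lemma ham_rad (φ : ℝ → ℝ) (μ : ℝ) {N : ℕ} (x : Fin N → E3) :
    ham (rad φ) μ x = μ * N - pairSum φ x / 2 := by
  simp [ham, rad, pairSum]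

lemma pairSum_mono {φ φ' : ℝ → ℝ} (h : ∀ r, φ r ≤ φ' r) {N : ℕ} (x : Fin N → E3) :
    pairSum φ x ≤ pairSum φ' x :=
  Finset.sum_le_sum (fun _ _ => Finset.sum_le_sum (fun _ _ => h _))

lemma pairSum_sub (φ φ' : ℝ → ℝ) {N : ℕ} (x : Fin N → E3) :
    pairSum (fun r => φ r - φ' r) x = pairSum φ x - pairSum φ' x := by
  simp [pairSum, Finset.sum_sub_distrib]

lemma pairSum_mul (c : ℝ) (φ : ℝ → ℝ) {N : ℕ} (x : Fin N → E3) :
    pairSum (fun r => c * φ r) x = c * pairSum φ x := by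
  simp [pairSum, Finset.mul_sum]

lemma pairSum_const (c : ℝ) {N : ℕ} (x : Fin N → E3) :
    pairSum (fun _ => c) x = c * N ^ 2 := by
  simp [pairSum]; ring

/-- logarithm of the grand partition function -/
noncomputable def GG (φ : ℝ → ℝ) (μ L : ℝ) : ℝ := Real.log (ZZ (cube L) (rad φ) μ).toReal

lemma ZZ_eq {φ : ℝ → ℝ} {μ L : ℝ} (h : ZZ (cube L) (rad φ) μ ≠ ⊤) :
    ZZ (cube L) (rad φ) μ = ENNReal.ofReal (Real.exp (GG φ μ L)) := by
  unfold GG
  have h1 : ZZ (cube L) (rad φ) μ ≠ 0 :=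
    (lt_of_lt_of_le zero_lt_one (one_le_ZZ _ _ _)).ne'
  rw [Real.exp_log (ENNReal.toReal_pos h1 h), ENNReal.ofReal_toReal h]

lemma GG_le {φ : ℝ → ℝ} {μ L t : ℝ} (h : ZZ (cube L) (rad φ) μ ≤ ENNReal.ofReal (Real.exp t)) :
    GG φ μ L ≤ t := by
  have h1 : ZZ (cube L) (rad φ) μ ≠ ⊤ := ne_top_of_le_ne_top ENNReal.ofReal_ne_top h
  rw [ZZ_eq h1, ENNReal.ofReal_le_ofReal_iff (Real.exp_pos _).le] at h
  exact Real.exp_le_exp.1 h

lemma le_GG {φ : ℝ → ℝ} {μ L t : ℝ} (h1 : ZZ (cube L) (rad φ) μ ≠ ⊤)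
    (h : ENNReal.ofReal (Real.exp t) ≤ ZZ (cube L) (rad φ) μ) : t ≤ GG φ μ L := by
  rw [ZZ_eq h1, ENNReal.ofReal_le_ofReal_iff (Real.exp_pos _).le] at h
  exact Real.exp_le_exp.1 h

lemma GG_nonneg (φ : ℝ → ℝ) (μ L : ℝ) : 0 ≤ GG φ μ L := by
  by_cases h : ZZ (cube L) (rad φ) μ = ⊤
  · unfold GG; rw [h]; simp
  · exact le_GG h (by simpa using one_le_ZZ _ _ _)

/-- superstability in the cube of side `L` -/
def SSt (κ : ℝ) (φ : ℝ → ℝ) (L : ℝ) : Prop :=
  ∀ (N : ℕ) (x : Fin N → E3), (∀ i, x i ∈ cube L) → κ * N ^ 2 / L ^ 3 ≤ pairSum φ x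

lemma meas_zero : Measurable (Function.uncurry (fun _ _ : E3 => (0 : ℝ))) := measurable_const

lemma ZZ_le_of_SSt {κ L : ℝ} {φ : ℝ → ℝ} (hκ : 0 < κ) (hL : 0 < L) (h : SSt κ φ L) (μ : ℝ) :
    ZZ (cube L) (rad φ) μ ≤ ENNReal.ofReal (Real.exp (L ^ 3 * (1 + μ ^ 2 / (2 * κ)))) := by
  have hv : 0 < L ^ 3 := by positivity
  have h1 := ZZ_le_mul (Λ := cube L) (Φ := rad φ) (μ := μ) (μ' := 0) (c := L ^ 3 * (μ ^ 2 / (2 * κ)))
    (meas_cube L) meas_zero subset_rfl (fun N x hx => by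
      rw [ham_rad]
      have h2 := h N x hx
      have h3 : ham (fun _ _ : E3 => (0 : ℝ)) 0 x = 0 := by simp [ham]
      have h4 : μ * N ≤ L ^ 3 * (μ ^ 2 / (2 * κ)) + κ * N ^ 2 / L ^ 3 / 2 := by
        have h5 : L ^ 3 * (μ ^ 2 / (2 * κ)) + κ * N ^ 2 / L ^ 3 / 2 - μ * N
            = (L ^ 3 * μ - κ * N) ^ 2 / (2 * κ * L ^ 3) := by field_simp; ring
        have h6 : 0 ≤ (L ^ 3 * μ - κ * N) ^ 2 / (2 * κ * L ^ 3) := by positivity
        linarith
      linarith)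
  rw [ZZ_free (meas_cube L) 0 hv.le (vol_cube hL.le), ← ENNReal.ofReal_mul (Real.exp_pos _).le,
    ← Real.exp_add] at h1
  convert h1 using 3
  simp; ring

lemma ZZ_ne_top {κ L : ℝ} {φ : ℝ → ℝ} (hκ : 0 < κ) (hL : 0 < L) (h : SSt κ φ L) (μ : ℝ) :
    ZZ (cube L) (rad φ) μ ≠ ⊤ :=
  ne_top_of_le_ne_top ENNReal.ofReal_ne_top (ZZ_le_of_SSt hκ hL h μ)

lemma GG_le_of {φ φ' : ℝ → ℝ} {μ μ' c L : ℝ} (hm : Measurable φ')
    (hfin : ZZ (cube L) (rad φ') μ' ≠ ⊤)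
    (h : ∀ (N : ℕ) (x : Fin N → E3), (∀ i, x i ∈ cube L) →
      μ * N - pairSum φ x / 2 ≤ c + (μ' * N - pairSum φ' x / 2)) :
    GG φ μ L ≤ c + GG φ' μ' L := by
  apply GG_le
  have h1 := ZZ_le_mul (Λ := cube L) (Φ := rad φ) (μ := μ) (μ' := μ') (c := c)
    (meas_cube L) (meas_rad hm) subset_rfl (fun N x hx => by
      rw [ham_rad, ham_rad]; exact h N x hx)
  rwa [ZZ_eq hfin, ← ENNReal.ofReal_mul (Real.exp_pos _).le, ← Real.exp_add] at h1

lemma GG_holder {φ φ₁ φ₂ : ℝ → ℝ} {μ μ₁ μ₂ a b L : ℝ} (ha : 0 ≤ a) (hb : 0 ≤ b) (hab : a + b = 1)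
    (hm₁ : Measurable φ₁) (hm₂ : Measurable φ₂) (hf₁ : ZZ (cube L) (rad φ₁) μ₁ ≠ ⊤)
    (hf₂ : ZZ (cube L) (rad φ₂) μ₂ ≠ ⊤)
    (h : ∀ (N : ℕ) (x : Fin N → E3), μ * N - pairSum φ x / 2 ≤
      a * (μ₁ * N - pairSum φ₁ x / 2) + b * (μ₂ * N - pairSum φ₂ x / 2)) :
    GG φ μ L ≤ a * GG φ₁ μ₁ L + b * GG φ₂ μ₂ L := by
  apply GG_le
  set G₁ := GG φ₁ μ₁ L with hG₁
  set G₂ := GG φ₂ μ₂ L with hG₂
  set c := a * G₁ + b * G₂ with hc
  have h1 := ZZ_le_sum (Λ := cube L) (Φ := rad φ) (μ := μ) (Finset.univ : Finset Bool)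
    (fun k => if k then a * Real.exp (c - G₁) else b * Real.exp (c - G₂))
    (fun k _ => by cases k <;> simp <;> positivity) (fun _ => cube L)
    (fun k => if k then rad φ₁ else rad φ₂) (fun k => if k then μ₁ else μ₂)
    (fun _ _ => meas_cube L) (fun k _ => by cases k; exact meas_rad hm₂; exact meas_rad hm₁)
    (fun _ _ => subset_rfl) (fun N x _ => by
      simp only [Fintype.sum_bool, if_true, Bool.false_eq_true, if_false, ham_rad]
      set u := μ₁ * N - pairSum φ₁ x / 2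
      set v := μ₂ * N - pairSum φ₂ x / 2
      have h2 := convexOn_exp.2 (mem_univ (c - G₁ + u)) (mem_univ (c - G₂ + v)) ha hb hab
      simp only [smul_eq_mul] at h2
      rw [Real.exp_add (c - G₁), Real.exp_add (c - G₂)] at h2
      have h3 : a * (c - G₁ + u) + b * (c - G₂ + v) = a * u + b * v := by
        have : a * c + b * c = c := by rw [← add_mul, hab, one_mul]
        linarith
      rw [h3] at h2
      have h4 := Real.exp_le_exp.2 (h N x)
      linarith)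
  simp only [Fintype.sum_bool, if_true, Bool.false_eq_true, if_false] at h1
  rw [ZZ_eq hf₁, ZZ_eq hf₂, ← hG₁, ← hG₂, ← ENNReal.ofReal_mul (by positivity),
    ← ENNReal.ofReal_mul (by positivity), ← ENNReal.ofReal_add (by positivity) (by positivity),
    mul_assoc, mul_assoc, ← Real.exp_add, ← Real.exp_add, sub_add_cancel, sub_add_cancel,
    ← add_mul, hab, one_mul] at h1
  exact h1

/-- admissible potentials -/
structure Good (κ : ℝ) (φ : ℝ → ℝ) : Prop where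
  pos : 0 < κ
  meas : Measurable φ
  neg : ∀ r, 4 ≤ r → φ r ≤ 0
  sst : ∀ L, 1 ≤ L → SSt κ φ L

lemma Good.fin {κ : ℝ} {φ : ℝ → ℝ} (h : Good κ φ) {L : ℝ} (hL : 1 ≤ L) (μ : ℝ) :
    ZZ (cube L) (rad φ) μ ≠ ⊤ := ZZ_ne_top h.pos (by linarith) (h.sst L hL) μ

lemma Good.GG_le {κ : ℝ} {φ : ℝ → ℝ} (h : Good κ φ) {L : ℝ} (hL : 1 ≤ L) (μ : ℝ) :
    GG φ μ L ≤ L ^ 3 * (1 + μ ^ 2 / (2 * κ)) :=
  Vale.Agent.P171.GG_le (ZZ_le_of_SSt h.pos (by linarith) (h.sst L hL) μ)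

/-- superadditivity over separated blocks -/
theorem GG_blocks {κ : ℝ} {φ : ℝ → ℝ} (h : Good κ φ) (μ : ℝ) {l L : ℝ} (hl : 1 ≤ l) (hL : 1 ≤ L)
    {k : ℕ} (hk : k * (l + 4) ≤ L) : k ^ 3 * GG φ μ l ≤ GG φ μ L := by
  classical
  have hh : 0 < l + 4 := by linarith
  set S : Finset (Fin 3 → ℤ) := Fintype.piFinset (fun _ => Finset.Ico (0 : ℤ) k) with hS
  set B : (Fin 3 → ℤ) → Set E3 := fun a => tcube (fun i => (l + 4) * a i) l with hB
  have hlab : ∀ a, ∀ x ∈ B a, blk (l + 4) 0 x = a := by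
    intro a x hx
    rw [blk_eq_iff hh]
    intro i
    have := hx i
    constructor <;> linarith [this.1, this.2]
  have h1 := ZZ_biUnion (blk (l + 4) 0) B (fun a => meas_tcube _ _) hlab
    (meas_same _ _ (meas_rad h.meas)) μ S
  have hcard : S.card = k ^ 3 := by rw [hS, Fintype.card_piFinset]; simp
  simp only [hB, ZZ_tcube, Finset.prod_const, hcard] at h1
  have h2 : ZZ (⋃ a ∈ S, B a) (fun x y => if blk (l + 4) 0 x = blk (l + 4) 0 y then rad φ x y else 0)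
      μ ≤ ZZ (cube L) (rad φ) μ := by
    refine ZZ_mono (meas_cube L) (meas_rad h.meas) (fun x hx => ?_) (fun N x hx => ?_)
    · simp only [mem_iUnion] at hx
      obtain ⟨a, ha, hx⟩ := hx
      intro i
      have h3 := Finset.mem_Ico.1 (Fintype.mem_piFinset.1 ha i)
      have h4 : (0 : ℝ) ≤ a i := by exact_mod_cast h3.1
      have h5 : (a i : ℝ) + 1 ≤ k := by exact_mod_cast h3.2
      have h6 := hx i
      constructor
      · nlinarith [h6.1]
      · nlinarith [h6.2]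
    · unfold ham
      have : ∑ i, ∑ j, rad φ (x i) (x j) ≤ ∑ i, ∑ j,
          if blk (l + 4) 0 (x i) = blk (l + 4) 0 (x j) then rad φ (x i) (x j) else 0 := by
        refine Finset.sum_le_sum (fun i _ => Finset.sum_le_sum (fun j _ => ?_))
        split_ifs with hij
        · exact le_rfl
        · apply h.neg
          have hi := hx i
          have hj := hx j
          simp only [mem_iUnion] at hi hj
          obtain ⟨a, _, hi⟩ := hi
          obtain ⟨a', _, hj⟩ := hj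
          rw [hlab a _ hi, hlab a' _ hj, funext_iff] at hij
          push Not at hij
          obtain ⟨c, hc⟩ := hij
          refine le_trans ?_ (coord_le_dist _ _ c)
          have h6 := hi c
          have h7 := hj c
          rw [le_abs]
          rcases lt_or_gt_of_ne hc with h8 | h8
          · have h9 : (a c : ℝ) + 1 ≤ a' c := by exact_mod_cast h8
            right; nlinarith [h6.2, h7.1]
          · have h9 : (a' c : ℝ) + 1 ≤ a c := by exact_mod_cast h8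
            left; nlinarith [h6.1, h7.2]
      linarith
  apply le_GG (h.fin hL μ)
  refine le_trans (le_of_eq ?_) h2
  rw [h1, ZZ_eq (h.fin hl μ), ← ENNReal.ofReal_pow (Real.exp_pos _).le, ← Real.exp_nat_mul]
  push_cast; rfl

/-- the pressure -/
noncomputable def PP (φ : ℝ → ℝ) (μ : ℝ) : ℝ :=
  sSup ((fun l => GG φ μ l / (l + 4) ^ 3) '' Ici 1)

lemma Good.term_le {κ : ℝ} {φ : ℝ → ℝ} (h : Good κ φ) (μ : ℝ) {l : ℝ} (hl : 1 ≤ l) :
    GG φ μ l / (l + 4) ^ 3 ≤ 1 + μ ^ 2 / (2 * κ) := by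
  rw [div_le_iff₀ (by positivity)]
  have h1 := h.GG_le hl μ
  have h2 : l ^ 3 ≤ (l + 4) ^ 3 := pow_le_pow_left₀ (by linarith) (by linarith) 3
  have h3 : 0 ≤ 1 + μ ^ 2 / (2 * κ) := by have := h.pos; positivity
  nlinarith

lemma Good.bdd {κ : ℝ} {φ : ℝ → ℝ} (h : Good κ φ) (μ : ℝ) :
    BddAbove ((fun l => GG φ μ l / (l + 4) ^ 3) '' Ici 1) :=
  ⟨_, by rintro _ ⟨l, hl, rfl⟩; exact h.term_le μ hl⟩

lemma Good.GG_le_PP {κ : ℝ} {φ : ℝ → ℝ} (h : Good κ φ) (μ : ℝ) {l : ℝ} (hl : 1 ≤ l) :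
    GG φ μ l ≤ (l + 4) ^ 3 * PP φ μ := by
  have h1 : GG φ μ l / (l + 4) ^ 3 ≤ PP φ μ := le_csSup (h.bdd μ) ⟨l, hl, rfl⟩
  rwa [div_le_iff₀ (by positivity), mul_comm] at h1

lemma Good.PP_le {κ : ℝ} {φ : ℝ → ℝ} (h : Good κ φ) (μ : ℝ) : PP φ μ ≤ 1 + μ ^ 2 / (2 * κ) :=
  csSup_le ⟨_, 1, self_mem_Ici, rfl⟩ (by rintro _ ⟨l, hl, rfl⟩; exact h.term_le μ hl)

lemma Good.PP_nonneg {κ : ℝ} {φ : ℝ → ℝ} (h : Good κ φ) (μ : ℝ) : 0 ≤ PP φ μ := by
  have h1 := h.GG_le_PP μ le_rfl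
  have h2 := GG_nonneg φ μ 1
  nlinarith

lemma tendsto_cube_ratio (a c : ℝ) :
    Tendsto (fun L : ℝ => (a * L + c) ^ 3 / L ^ 3) atTop (𝓝 (a ^ 3)) := by
  have h1 : Tendsto (fun L : ℝ => (a + c * L⁻¹) ^ 3) atTop (𝓝 ((a + c * 0) ^ 3)) :=
    ((tendsto_inv_atTop_zero.const_mul c).const_add a).pow 3
  rw [mul_zero, add_zero] at h1
  refine h1.congr' ?_
  filter_upwards [eventually_gt_atTop 0] with L hL
  field_simp

theorem Good.tendsto {κ : ℝ} {φ : ℝ → ℝ} (h : Good κ φ) (μ : ℝ) :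
    Tendsto (fun L => GG φ μ L / L ^ 3) atTop (𝓝 (PP φ μ)) := by
  rw [tendsto_order]
  constructor
  · intro a ha
    obtain ⟨_, ⟨l, hl, rfl⟩, hlt⟩ := exists_lt_of_lt_csSup
      (s := (fun l => GG φ μ l / (l + 4) ^ 3) '' Ici 1) ⟨_, 1, self_mem_Ici, rfl⟩ ha
    have hl' : 1 ≤ l := hl
    have hh : 0 < l + 4 := by linarith
    have h1 := (tendsto_cube_ratio (l + 4)⁻¹ (-1)).mul_const (GG φ μ l)
    have h2 : (l + 4)⁻¹ ^ 3 * GG φ μ l = GG φ μ l / (l + 4) ^ 3 := by field_simp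
    rw [h2] at h1
    filter_upwards [h1.eventually (lt_mem_nhds hlt), eventually_ge_atTop (l + 4)] with L h3 h4
    refine lt_of_lt_of_le h3 ?_
    have hL : 0 < L := by linarith
    have h5 := GG_blocks h μ hl' (show 1 ≤ L by linarith) (k := ⌊L / (l + 4)⌋₊) (by
      rw [← le_div_iff₀ hh]; exact Nat.floor_le (by positivity))
    have h6 : ((l + 4)⁻¹ * L + -1) ^ 3 ≤ (⌊L / (l + 4)⌋₊ : ℝ) ^ 3 := by
      have h7 : (l + 4)⁻¹ * L = L / (l + 4) := by field_simp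
      have h8 : 1 ≤ L / (l + 4) := by rw [le_div_iff₀ hh]; linarith
      rw [h7]
      exact pow_le_pow_left₀ (by linarith) (by linarith [Nat.lt_floor_add_one (L / (l + 4))]) 3
    rw [div_mul_eq_mul_div]
    exact div_le_div_of_nonneg_right
      (le_trans (mul_le_mul_of_nonneg_right h6 (GG_nonneg _ _ _)) h5) (by positivity)
  · intro a ha
    have h1 := (tendsto_cube_ratio 1 4).mul_const (PP φ μ)
    rw [one_pow, one_mul] at h1
    filter_upwards [h1.eventually (gt_mem_nhds ha), eventually_ge_atTop 1] with L h3 h4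
    refine lt_of_le_of_lt ?_ h3
    rw [div_mul_eq_mul_div, one_mul]
    exact div_le_div_of_nonneg_right (h.GG_le_PP μ h4) (by positivity)

lemma PP_mono {κ κ' : ℝ} {φ φ' : ℝ → ℝ} (h : Good κ φ) (h' : Good κ' φ') (hle : ∀ r, φ' r ≤ φ r)
    {μ μ' : ℝ} (hμ : μ ≤ μ') : PP φ μ ≤ PP φ' μ' := by
  refine le_of_tendsto_of_tendsto (h.tendsto μ) (h'.tendsto μ') ?_
  filter_upwards [eventually_ge_atTop 1] with L hL
  refine div_le_div_of_nonneg_right ?_ (by positivity)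
  have := GG_le_of (φ := φ) (μ := μ) (c := 0) h'.meas (h'.fin hL μ') (fun N x _ => by
    have h1 := pairSum_mono hle x
    have h2 : μ * N ≤ μ' * N := mul_le_mul_of_nonneg_right hμ (Nat.cast_nonneg N)
    linarith)
  linarith

lemma Good.convex {κ : ℝ} {φ : ℝ → ℝ} (h : Good κ φ) : ConvexOn ℝ univ (PP φ) := by
  refine ⟨convex_univ, fun x _ y _ a b ha hb hab => ?_⟩
  simp only [smul_eq_mul]
  refine le_of_tendsto_of_tendsto (h.tendsto _)
    (((h.tendsto x).const_mul a).add ((h.tendsto y).const_mul b)) ?_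
  filter_upwards [eventually_ge_atTop 1] with L hL
  have h1 := GG_holder (φ := φ) (μ := a * x + b * y) ha hb hab h.meas h.meas (h.fin hL x)
    (h.fin hL y) (fun N z => by
      have : a * pairSum φ z + b * pairSum φ z = pairSum φ z := by rw [← add_mul, hab, one_mul]
      linarith)
  rw [← mul_div_assoc, ← mul_div_assoc, ← add_div]
  exact div_le_div_of_nonneg_right h1 (by positivity)

lemma Good.PP_ge {κ : ℝ} {φ : ℝ → ℝ} (h : Good κ φ) (μ : ℝ) :
    (μ - φ 0 / 2) / 125 ≤ PP φ μ := by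
  have h1 := h.GG_le_PP μ le_rfl
  have h2 : μ - φ 0 / 2 ≤ GG φ μ 1 := by
    apply le_GG (h.fin le_rfl μ)
    have := ZZ_one_le (meas_cube 1) (Φ := rad φ) (c := φ 0) (fun x => by simp [rad]) μ
    rw [vol_cube zero_le_one] at this
    simpa using this
  rw [div_le_iff₀ (by norm_num)]
  norm_num at h1
  linarith

lemma Good.PP_le_exp {κ : ℝ} {φ : ℝ → ℝ} (h : Good κ φ) (h0 : ∀ r, 0 ≤ φ r) :
    PP φ (φ 0 / 2) ≤ 1 := by
  refine le_of_tendsto (h.tendsto _) ?_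
  filter_upwards [eventually_ge_atTop 1] with L hL
  rw [div_le_one (by positivity)]
  apply Vale.Agent.P171.GG_le
  have h1 := ZZ_mono (Λ := cube L) (Φ := rad φ) (μ := φ 0 / 2) (μ' := 0) (meas_cube L) meas_zero
    subset_rfl (fun N x _ => by
      rw [ham_rad]
      have h2 : ∑ i : Fin N, φ 0 ≤ pairSum φ x := by
        refine Finset.sum_le_sum (fun i _ => ?_)
        have := Finset.single_le_sum (f := fun j => φ (dist (x i) (x j))) (fun j _ => h0 _)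
          (Finset.mem_univ i)
        simpa using this
      simp only [Finset.sum_const, Finset.card_univ, Fintype.card_fin, nsmul_eq_mul] at h2
      have h3 : ham (fun _ _ : E3 => (0 : ℝ)) 0 x = 0 := by simp [ham]
      linarith)
  rw [ZZ_free (meas_cube L) 0 (by positivity) (vol_cube (by linarith))] at h1
  simpa using h1

/-- exact mean-field lower bound -/
theorem PP_lower {κ κ' : ℝ} {φ φ' : ℝ → ℝ} (h : Good κ φ) (h' : Good κ' φ') {b R : ℝ} (hb : 0 ≤ b)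
    (hR : 0 < R) (hle : ∀ r, φ' r ≤ φ r - b * psi R r) (μ m : ℝ) :
    PP φ (μ + b * m) - b * m ^ 2 / 2 ≤ PP φ' μ := by
  have h1 := (h.tendsto (μ + b * m)).sub ((tendsto_cube_ratio 1 (2 * R)).const_mul (b * m ^ 2 / 2))
  rw [one_pow, mul_one] at h1
  refine le_of_tendsto_of_tendsto h1 (h'.tendsto μ) ?_
  filter_upwards [eventually_ge_atTop 1] with L hL
  have h2 := GG_le_of (φ := φ) (μ := μ + b * m) (c := b * m ^ 2 / 2 * (L + 2 * R) ^ 3) h'.meas
    (h'.fin hL μ) (fun N x hx => by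
      have h3 := pairSum_mono hle x
      rw [pairSum_sub, pairSum_mul] at h3
      have h4 := psi_lower hR (by linarith) m hx
      have h5 := mul_le_mul_of_nonneg_left h4 hb
      unfold pairSum at h3 ⊢
      nlinarith)
  rw [← mul_div_assoc, ← sub_div, one_mul]
  exact div_le_div_of_nonneg_right (by linarith) (by positivity)

end Vale.Agent.P171
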