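import Vale.Agent.P171.Thermo

/-! The mean-field upper bound with an explicit error. -/

namespace Vale.Agent.P171

open MeasureTheory Set Filter Topology
open scoped ENNReal

/-- decoupling along shifted grids -/
theorem GG_decouple {φ φ₀ Ψ φt : ℝ → ℝ} {h c t μ L : ℝ} {j n : ℕ} (hh : 0 < h) (hj : 0 < j)
    (h0 : ∀ r, 0 ≤ φ₀ r) (hΨ : ∀ r, 0 ≤ Ψ r) (hsupp : ∀ r, h / j < r → Ψ r = 0)
    (ht0 : 0 ≤ t) (ht : (j : ℝ) ≤ t * (j - 3))
    (hφ : ∀ (s : ℝ) (N : ℕ) (x : Fin N → E3),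
      pairSum φ₀ x - pairSum Ψ x - c / h ^ 3 * SS h s x ≤ pairSum φ x)
    (hφt : ∀ r, φt r = φ₀ r - t * Ψ r - c / h ^ 3) (hm : Measurable φt)
    (hfin : ZZ (cube h) (rad φt) μ ≠ ⊤) (hn : L < n * h) :
    GG φ μ L ≤ Real.log j + (n + 1) ^ 3 * GG φt μ h := by
  classical
  have hj' : (0 : ℝ) < j := by exact_mod_cast hj
  apply GG_le
  have h1 := ZZ_le_sum (Λ := cube L) (Φ := rad φ) (μ := μ) (Finset.range j) (fun _ => 1)
    (fun _ _ => zero_le_one)
    (fun s : ℕ => ⋃ k ∈ labels n, blk h (s * h / j) ⁻¹' {k})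
    (fun s : ℕ => fun x y => if blk h (s * h / j) x = blk h (s * h / j) y then rad φt x y else 0)
    (fun _ => μ) (fun s _ => Finset.measurableSet_biUnion _ (fun k _ => meas_cell _ _ k))
    (fun s _ => meas_same _ _ (meas_rad hm))
    (fun s hs x hx => by
      simp only [mem_iUnion]
      refine ⟨_, blk_mem_labels hh (by positivity) ?_ hn hx, rfl⟩
      rw [div_le_iff₀ hj']
      have : (s : ℝ) ≤ j := by exact_mod_cast (Finset.mem_range.1 hs).le
      nlinarith)
    (fun N x _ => by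
      have h2 : ∑ s ∈ Finset.range j, (∑ a, ∑ b,
          if blk h (s * h / j) (x a) = blk h (s * h / j) (x b) then rad φt (x a) (x b) else 0)
          ≤ ∑ s ∈ Finset.range j, pairSum φ x := by
        have h3 : ∀ s : ℕ, (∑ a, ∑ b,
            if blk h (s * h / j) (x a) = blk h (s * h / j) (x b) then rad φt (x a) (x b) else 0)
            = (∑ a, ∑ b, (φ₀ (dist (x a) (x b)) - t * Ψ (dist (x a) (x b))) *
              if blk h (s * h / j) (x a) = blk h (s * h / j) (x b) then 1 else 0)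
              - c / h ^ 3 * SS h (s * h / j) x := by
          intro s
          unfold SS
          rw [Finset.mul_sum, ← Finset.sum_sub_distrib]
          refine Finset.sum_congr rfl (fun a _ => ?_)
          rw [Finset.mul_sum, ← Finset.sum_sub_distrib]
          refine Finset.sum_congr rfl (fun b _ => ?_)
          unfold rad
          rw [hφt]
          split_ifs <;> ring
        have h4 : ∑ s ∈ Finset.range j, (∑ a, ∑ b,
            (φ₀ (dist (x a) (x b)) - t * Ψ (dist (x a) (x b))) *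
              if blk h (s * h / j) (x a) = blk h (s * h / j) (x b) then (1 : ℝ) else 0)
            ≤ j * (pairSum φ₀ x - pairSum Ψ x) := by
          rw [← pairSum_sub, ← pairSum_mul, Finset.sum_comm]
          refine Finset.sum_le_sum (fun a _ => ?_)
          rw [Finset.sum_comm]
          refine Finset.sum_le_sum (fun b _ => ?_)
          rw [← Finset.mul_sum]
          beta_reduce
          set w := ∑ s ∈ Finset.range j,
            if blk h (s * h / j) (x a) = blk h (s * h / j) (x b) then (1 : ℝ) else 0 with hw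
          have hw1 : w ≤ j := by
            have := Finset.sum_le_sum (s := Finset.range j) (g := fun _ => (1 : ℝ))
              (f := fun s : ℕ =>
                if blk h (s * h / j) (x a) = blk h (s * h / j) (x b) then (1 : ℝ) else 0)
              (fun s _ => by split_ifs <;> norm_num)
            rwa [Finset.sum_const, Finset.card_range, nsmul_eq_mul, mul_one] at this
          have h5 := h0 (dist (x a) (x b))
          have h6 := hΨ (dist (x a) (x b))
          rcases le_or_gt (dist (x a) (x b)) (h / j) with h7 | h7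
          · have h8 : (j : ℝ) - 3 ≤ w := same_count hh hj h7
            have h9 : (j : ℝ) ≤ t * w := le_trans ht (mul_le_mul_of_nonneg_left h8 ht0)
            nlinarith
          · rw [hsupp _ h7]; nlinarith
        simp only [h3]
        rw [Finset.sum_sub_distrib]
        have h10 : ∑ s ∈ Finset.range j, (pairSum φ₀ x - pairSum Ψ x - c / h ^ 3 * SS h (s * h / j) x)
            ≤ ∑ s ∈ Finset.range j, pairSum φ x := Finset.sum_le_sum (fun s _ => hφ _ N x)
        rw [Finset.sum_sub_distrib, Finset.sum_const, Finset.card_range, nsmul_eq_mul] at h10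
        linarith
      obtain ⟨s, hs, h11⟩ := Finset.exists_le_of_sum_le
        (Finset.nonempty_range_iff.2 hj.ne') h2
      refine le_trans ?_ (Finset.single_le_sum (f := fun s : ℕ => 1 * Real.exp (ham (fun x y =>
        if blk h (s * h / j) x = blk h (s * h / j) y then rad φt x y else 0) μ x))
        (fun _ _ => by positivity) hs)
      rw [one_mul, ham_rad]
      apply Real.exp_le_exp.2
      unfold ham
      rw [Fintype.card_fin]
      linarith)
  refine le_trans h1 ?_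
  have h12 : ∀ s ∈ Finset.range j, ENNReal.ofReal 1 *
      ZZ (⋃ k ∈ labels n, blk h (s * h / j) ⁻¹' {k})
        (fun x y => if blk h (s * h / j) x = blk h (s * h / j) y then rad φt x y else 0) μ
      ≤ ENNReal.ofReal (Real.exp ((n + 1) ^ 3 * GG φt μ h)) := by
    intro s _
    rw [ENNReal.ofReal_one, one_mul, ZZ_biUnion (blk h (s * h / j)) _ (fun k => meas_cell _ _ k)
      (fun k x hx => hx) (meas_same _ _ (meas_rad hm))]
    refine le_trans (Finset.prod_le_pow_card _ _ (ZZ (cube h) (rad φt) μ) (fun k _ => ?_)) ?_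
    · rw [← ZZ_tcube (fun a => s * h / j + h * k a)]
      exact ZZ_mono (meas_tcube _ _) (meas_rad hm) (cell_subset hh _ k) (fun _ _ _ => le_rfl)
    · rw [ZZ_eq hfin, ← ENNReal.ofReal_pow (Real.exp_pos _).le, ← Real.exp_nat_mul, card_labels]
      push_cast; rfl
  refine le_trans (Finset.sum_le_sum h12) ?_
  rw [Finset.sum_const, Finset.card_range, nsmul_eq_mul, Real.exp_add, Real.exp_log hj',
    ENNReal.ofReal_mul hj'.le, ENNReal.ofReal_natCast]

theorem PP_decouple {κ : ℝ} {φ φ₀ Ψ φt : ℝ → ℝ} (hg : Good κ φ) {h c t μ : ℝ} {j : ℕ} (hh : 0 < h)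
    (hj : 0 < j) (h0 : ∀ r, 0 ≤ φ₀ r) (hΨ : ∀ r, 0 ≤ Ψ r) (hsupp : ∀ r, h / j < r → Ψ r = 0)
    (ht0 : 0 ≤ t) (ht : (j : ℝ) ≤ t * (j - 3))
    (hφ : ∀ (s : ℝ) (N : ℕ) (x : Fin N → E3),
      pairSum φ₀ x - pairSum Ψ x - c / h ^ 3 * SS h s x ≤ pairSum φ x)
    (hφt : ∀ r, φt r = φ₀ r - t * Ψ r - c / h ^ 3) (hm : Measurable φt)
    (hfin : ZZ (cube h) (rad φt) μ ≠ ⊤) : PP φ μ ≤ GG φt μ h / h ^ 3 := by
  have h1 := ((tendsto_pow_atTop (α := ℝ) (n := 3) (by norm_num)).const_div_atTop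
    (Real.log j)).add ((tendsto_cube_ratio h⁻¹ 2).mul_const (GG φt μ h))
  have h2 : 0 + h⁻¹ ^ 3 * GG φt μ h = GG φt μ h / h ^ 3 := by field_simp; ring
  rw [h2] at h1
  refine le_of_tendsto_of_tendsto (hg.tendsto μ) h1 ?_
  filter_upwards [eventually_gt_atTop 0] with L hL
  have h3 := GG_decouple (L := L) (n := ⌊L / h⌋₊ + 1) hh hj h0 hΨ hsupp ht0 ht hφ hφt hm hfin (by
    rw [← div_lt_iff₀ hh]; push_cast; exact Nat.lt_floor_add_one _)
  have h4 : (((⌊L / h⌋₊ + 1 : ℕ) : ℝ) + 1) ^ 3 ≤ (h⁻¹ * L + 2) ^ 3 := by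
    have h5 : h⁻¹ * L = L / h := by field_simp
    rw [h5]; push_cast
    exact pow_le_pow_left₀ (by positivity)
      (by linarith [Nat.floor_le (show 0 ≤ L / h by positivity)]) 3
  rw [div_mul_eq_mul_div, ← add_div]
  refine div_le_div_of_nonneg_right (le_trans h3 ?_) (by positivity)
  have := mul_le_mul_of_nonneg_right h4 (GG_nonneg φt μ h)
  linarith

/-- large deviations in one block -/
theorem GG_meanfield {κ : ℝ} {φ φ₁ : ℝ → ℝ} {h c μ ρ B : ℝ} (hh : 0 < h) (hκ : 0 < κ)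
    (hm : Measurable φ) (hfin : ∀ μ', ZZ (cube h) (rad φ) μ' ≠ ⊤)
    (hφ₁ : ∀ r, φ₁ r = φ r - c / h ^ 3) (hs : SSt κ φ₁ h) (hρ : 1 ≤ ρ) (hμ : μ + 1 ≤ κ * ρ / 2)
    (hB0 : 0 ≤ B) (hB : ∀ m, 0 ≤ m → m ≤ ρ → GG φ (μ + c * m) h - h ^ 3 * (c * m ^ 2 / 2) ≤ B) :
    GG φ₁ μ h ≤ Real.log (ρ * h ^ 3 + 2) + B := by
  have hv : 0 < h ^ 3 := by positivity
  set v := h ^ 3 with hvdef
  set n0 := ⌊ρ * v⌋₊ with hn0
  have hn0' : (n0 : ℝ) ≤ ρ * v := Nat.floor_le (by positivity)
  apply GG_le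
  have h1 := ZZ_le_sum (Λ := cube h) (Φ := rad φ₁) (μ := μ)
    (Finset.insertNone (Finset.range (n0 + 1)))
    (fun k => k.elim (Real.exp (-(ρ * v))) (fun k => Real.exp (-(v * (c * (k / v) ^ 2 / 2)))))
    (fun k _ => by cases k <;> simp only [Option.elim] <;> positivity) (fun _ => cube h)
    (fun k => k.elim (fun _ _ => 0) (fun _ => rad φ))
    (fun k => k.elim (μ + 1 - κ * ρ / 2) (fun k => μ + c * (k / v)))
    (fun _ _ => meas_cube h) (fun k _ => by cases k; exact meas_zero; exact meas_rad hm)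
    (fun _ _ => subset_rfl) (fun N x hx => by
      rw [Finset.sum_insertNone]
      simp only [Option.elim, ham_rad]
      have h2 : pairSum φ₁ x = pairSum φ x - c / v * N ^ 2 := by
        rw [show φ₁ = fun r => φ r - c / v from funext hφ₁, pairSum_sub, pairSum_const]
      have h3 : 0 ≤ ∑ k ∈ Finset.range (n0 + 1), Real.exp (-(v * (c * ((k : ℝ) / v) ^ 2 / 2))) *
          Real.exp ((μ + c * (k / v)) * N - pairSum φ x / 2) :=
        Finset.sum_nonneg (fun _ _ => by positivity)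
      have h4 : 0 ≤ Real.exp (-(ρ * v)) *
        Real.exp (ham (fun _ _ : E3 => (0 : ℝ)) (μ + 1 - κ * ρ / 2) x) := by positivity
      rcases le_or_gt N n0 with hN | hN
      · have h5 := Finset.single_le_sum (f := fun k : ℕ =>
          Real.exp (-(v * (c * ((k : ℝ) / v) ^ 2 / 2))) *
            Real.exp ((μ + c * (k / v)) * N - pairSum φ x / 2)) (fun _ _ => by positivity)
          (Finset.mem_range.2 (Nat.lt_succ_of_le hN))
        rw [← Real.exp_add] at h5
        have h6 : -(v * (c * ((N : ℝ) / v) ^ 2 / 2)) + ((μ + c * (N / v)) * N - pairSum φ x / 2)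
            = μ * N - pairSum φ₁ x / 2 := by rw [h2]; field_simp; ring
        rw [h6] at h5
        linarith
      · have h5 : ρ * v ≤ N := by
          have : (n0 : ℝ) + 1 ≤ N := by exact_mod_cast hN
          linarith [Nat.lt_floor_add_one (ρ * v)]
        have h6 := hs N x hx
        have h7 : ham (fun _ _ : E3 => (0 : ℝ)) (μ + 1 - κ * ρ / 2) x = (μ + 1 - κ * ρ / 2) * N := by
          simp [ham]
        have h8 : κ * ρ * N ≤ κ * N ^ 2 / v := by
          rw [le_div_iff₀ hv]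
          have : 0 ≤ κ * N := by positivity
          nlinarith
        have h9 : Real.exp (μ * N - pairSum φ₁ x / 2) ≤ Real.exp (-(ρ * v)) *
            Real.exp (ham (fun _ _ : E3 => (0 : ℝ)) (μ + 1 - κ * ρ / 2) x) := by
          rw [← Real.exp_add, h7]
          apply Real.exp_le_exp.2
          linarith
        linarith)
  refine le_trans h1 ?_
  rw [Finset.sum_insertNone]
  simp only [Option.elim]
  have h10 : ENNReal.ofReal (Real.exp (-(ρ * v))) * ZZ (cube h) (fun _ _ => 0) (μ + 1 - κ * ρ / 2)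
      ≤ ENNReal.ofReal (Real.exp B) := by
    rw [ZZ_free (meas_cube h) _ hv.le (vol_cube hh.le), ← ENNReal.ofReal_mul (Real.exp_pos _).le,
      ← Real.exp_add]
    refine ENNReal.ofReal_le_ofReal (Real.exp_le_exp.2 ?_)
    have : Real.exp (μ + 1 - κ * ρ / 2) ≤ 1 := Real.exp_le_one_iff.2 (by linarith)
    nlinarith
  have h11 : ∀ k ∈ Finset.range (n0 + 1),
      ENNReal.ofReal (Real.exp (-(v * (c * ((k : ℝ) / v) ^ 2 / 2)))) *
        ZZ (cube h) (rad φ) (μ + c * (k / v)) ≤ ENNReal.ofReal (Real.exp B) := by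
    intro k hk
    rw [ZZ_eq (hfin _), ← ENNReal.ofReal_mul (Real.exp_pos _).le, ← Real.exp_add]
    refine ENNReal.ofReal_le_ofReal (Real.exp_le_exp.2 ?_)
    have h12 : (k : ℝ) ≤ n0 := by exact_mod_cast Nat.lt_succ_iff.1 (Finset.mem_range.1 hk)
    have := hB (k / v) (by positivity) (by rw [div_le_iff₀ hv]; linarith)
    linarith
  refine le_trans (add_le_add h10 (Finset.sum_le_sum h11)) ?_
  rw [Finset.sum_const, Finset.card_range, nsmul_eq_mul, ← ENNReal.ofReal_natCast,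
    ← ENNReal.ofReal_mul (by positivity), ← ENNReal.ofReal_add (by positivity) (by positivity),
    Real.exp_add, Real.exp_log (by positivity)]
  refine ENNReal.ofReal_le_ofReal ?_
  push_cast
  have := Real.exp_pos B
  nlinarith

/-- the mean-field upper bound for the pressure -/
theorem PP_upper {κ : ℝ} {φ φ' φ₀ Ψ : ℝ → ℝ} (hg : Good κ φ) (hg' : Good κ φ') {h c μ ρ Q M : ℝ}
    {j : ℕ} (hh : 1 ≤ h) (hj : 6 ≤ j) (hm0 : Measurable φ₀) (hmΨ : Measurable Ψ)
    (h0 : ∀ r, 0 ≤ φ₀ r) (hΨ : ∀ r, 0 ≤ Ψ r) (hsupp : ∀ r, h / j < r → Ψ r = 0)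
    (hφ : ∀ r, φ r = φ₀ r - Ψ r)
    (hφ' : ∀ (s : ℝ) (N : ℕ) (x : Fin N → E3),
      pairSum φ₀ x - pairSum Ψ x - c / h ^ 3 * SS h s x ≤ pairSum φ' x)
    (hs : SSt κ (fun r => φ₀ r - 2 * Ψ r - c / h ^ 3) h) (hρ : 1 ≤ ρ) (hμ : μ + 1 ≤ κ * ρ / 2)
    (hQ : ∀ m, 0 ≤ m → m ≤ ρ → 1 + (μ + c * m) ^ 2 / (2 * κ) ≤ Q)
    (hM : ∀ m, 0 ≤ m → m ≤ ρ → PP φ (μ + c * m) - c * m ^ 2 / 2 ≤ M) :
    PP φ' μ ≤ M + (124 * Q + ρ + 5) / h + 6 * Q / j := by
  have hκ := hg.pos
  have hh0 : 0 < h := by linarith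
  have hv : 0 < h ^ 3 := by positivity
  have hj' : (6 : ℝ) ≤ j := by exact_mod_cast hj
  set θ : ℝ := 6 / j with hθ
  have hθ0 : 0 ≤ θ := by positivity
  have hθ1 : θ ≤ 1 := by rw [hθ, div_le_one (by linarith)]; exact hj'
  have hθj : θ * j = 6 := by rw [hθ]; field_simp
  have hs1 : SSt κ (fun r => φ₀ r - Ψ r - c / h ^ 3) h := fun N x hx =>
    le_trans (hs N x hx) (pairSum_mono (fun r => by linarith [hΨ r]) x)
  have hst : SSt κ (fun r => φ₀ r - (1 + θ) * Ψ r - c / h ^ 3) h := fun N x hx =>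
    le_trans (hs N x hx) (pairSum_mono (fun r => by nlinarith [hΨ r]) x)
  have h1 := PP_decouple (μ := μ) (t := 1 + θ)
    (φt := fun r => φ₀ r - (1 + θ) * Ψ r - c / h ^ 3) hg' hh0 (by omega) h0 hΨ hsupp
    (by linarith) (by nlinarith) hφ' (fun _ => rfl) (by fun_prop) (ZZ_ne_top hκ hh0 hst μ)
  have h2 := GG_holder (φ := fun r => φ₀ r - (1 + θ) * Ψ r - c / h ^ 3) (μ := μ)
    (φ₁ := fun r => φ₀ r - Ψ r - c / h ^ 3) (φ₂ := fun r => φ₀ r - 2 * Ψ r - c / h ^ 3)
    (a := 1 - θ) (b := θ) (by linarith) hθ0 (by ring) (by fun_prop) (by fun_prop)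
    (ZZ_ne_top hκ hh0 hs1 μ) (ZZ_ne_top hκ hh0 hs μ) (fun N x => by
      simp only [pairSum_sub, pairSum_mul, pairSum_const]
      apply le_of_eq; ring)
  have hQ0 := hQ 0 le_rfl (by linarith)
  rw [mul_zero, add_zero] at hQ0
  have hQ1 : 1 ≤ Q := by
    have : 0 ≤ μ ^ 2 / (2 * κ) := by positivity
    linarith
  have h3 : GG (fun r => φ₀ r - 2 * Ψ r - c / h ^ 3) μ h ≤ h ^ 3 * Q :=
    le_trans (GG_le (ZZ_le_of_SSt hκ hh0 hs μ)) (mul_le_mul_of_nonneg_left hQ0 hv.le)
  have hM0 : 0 ≤ M := by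
    have := hM 0 le_rfl (by linarith)
    have h4 := hg.PP_nonneg (μ + c * 0)
    simp only [ne_eq, OfNat.ofNat_ne_zero, not_false_eq_true, zero_pow, mul_zero, zero_div,
      sub_zero] at this h4
    linarith
  have hcube : (h + 4) ^ 3 ≤ h ^ 3 + 124 * h ^ 2 := by nlinarith
  have h5 := GG_meanfield (μ := μ) (ρ := ρ) (c := c) (B := h ^ 3 * M + 124 * h ^ 2 * Q)
    (φ₁ := fun r => φ₀ r - Ψ r - c / h ^ 3) hh0 hκ hg.meas (fun μ' => hg.fin hh μ')
    (fun r => by rw [hφ]) hs1 hρ hμ (by positivity) (fun m hm1 hm2 => by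
      have h6 := hg.GG_le_PP (μ + c * m) hh
      have h7 := hM m hm1 hm2
      have h8 := le_trans (hg.PP_le (μ + c * m)) (hQ m hm1 hm2)
      have h9 := hg.PP_nonneg (μ + c * m)
      have h10 := mul_le_mul_of_nonneg_right hcube h9
      have h11 := mul_le_mul_of_nonneg_left h7 hv.le
      have h12 := mul_le_mul_of_nonneg_left h8 (show 0 ≤ 124 * h ^ 2 by positivity)
      nlinarith)
  have h13 : Real.log (ρ * h ^ 3 + 2) ≤ (ρ + 5) * h ^ 2 := by
    have h14 : ρ * h ^ 3 + 2 ≤ (ρ + 2) * h ^ 3 := by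
      have : 1 ≤ h ^ 3 := one_le_pow₀ hh
      nlinarith
    have h15 := Real.log_le_log (by positivity) h14
    rw [Real.log_mul (by positivity) hv.ne', Real.log_pow] at h15
    have h16 := Real.log_le_sub_one_of_pos (show 0 < ρ + 2 by linarith)
    have h17 := Real.log_le_sub_one_of_pos hh0
    have h18 : h ≤ h ^ 2 := by nlinarith
    have h19 : 1 ≤ h ^ 2 := one_le_pow₀ hh
    push_cast at h15
    nlinarith
  have h20 := GG_nonneg (fun r => φ₀ r - Ψ r - c / h ^ 3) μ h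
  refine le_trans h1 ?_
  rw [div_le_iff₀ hv]
  have h21 : (M + (124 * Q + ρ + 5) / h + 6 * Q / j) * h ^ 3
      = h ^ 3 * M + (124 * Q + ρ + 5) * h ^ 2 + θ * (h ^ 3 * Q) := by
    rw [hθ]; field_simp
  rw [h21]
  have h22 := mul_le_mul_of_nonneg_left h3 hθ0
  nlinarith

end Vale.Agent.P171
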